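import Vale.Agent.P121.Defs

open scoped ENNReal
open MeasureTheory Measure

namespace Vale.Agent.P121

lemma measurable_coulomb : Measurable (fun p : R3 × R3 × R3 => coulomb p.1 p.2.1 p.2.2) := by
  unfold coulomb
  refine Measurable.add (Measurable.add ?_ ?_) ?_
  · exact (measurable_fst.edist (measurable_fst.comp measurable_snd)).inv
  · exact (measurable_fst.edist (measurable_snd.comp measurable_snd)).inv
  · exact ((measurable_fst.comp measurable_snd).edist (measurable_snd.comp measurable_snd)).inv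

lemma coulomb_rot (x y z : R3) : coulomb y z x = coulomb x y z := by
  unfold coulomb
  rw [edist_comm y x, edist_comm z x]
  abel

lemma coulomb_swap (x y z : R3) : coulomb x z y = coulomb x y z := by
  unfold coulomb
  rw [edist_comm z y]
  abel

/-- The measure built from the base measure and the four branch maps. -/
noncomputable def muOf (lam : Measure R3) (s : Fin 4 → R3 → R3) : Measure R3 :=
  (6 : ℝ≥0∞)⁻¹ • ((2 : ℝ≥0∞) • lam + ∑ k, lam.map (s k))

lemma muOf_apply (lam : Measure R3) (s : Fin 4 → R3 → R3) (hs : ∀ k, Measurable (s k))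
    {W : Set R3} (hW : MeasurableSet W) :
    muOf lam s W = (6 : ℝ≥0∞)⁻¹ * (2 * lam W + ∑ k, lam (s k ⁻¹' W)) := by
  simp [muOf, Measure.smul_apply, Measure.add_apply, Measure.finsetSum_apply,
    Measure.map_apply (hs _) hW, mul_add]

/-- Three rotated copies of the graph measure of the pair `(b, c)`. -/
noncomputable def piOf (lam : Measure R3) (b c : R3 → R3) : Measure (R3 × R3 × R3) :=
  lam.map (fun a => (a, b a, c a)) + lam.map (fun a => (b a, c a, a))
    + lam.map (fun a => (c a, a, b a))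

section
variable (lam : Measure R3) {b c : R3 → R3} (hb : Measurable b) (hc : Measurable c)
include hb hc

lemma meas_t1 : Measurable (fun a => (a, b a, c a)) :=
  measurable_id.prodMk (hb.prodMk hc)
lemma meas_t2 : Measurable (fun a => (b a, c a, a)) :=
  hb.prodMk (hc.prodMk measurable_id)
lemma meas_t3 : Measurable (fun a => (c a, a, b a)) :=
  hc.prodMk (measurable_id.prodMk hb)

lemma piOf_map1 : (piOf lam b c).map (fun p => p.1) = lam + lam.map b + lam.map c := by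
  have m : Measurable (fun p : R3 × R3 × R3 => p.1) := measurable_fst
  rw [piOf, Measure.map_add _ _ m, Measure.map_add _ _ m,
    Measure.map_map m (meas_t1 hb hc), Measure.map_map m (meas_t2 hb hc),
    Measure.map_map m (meas_t3 hb hc)]
  simp [Function.comp_def]

lemma piOf_map2 : (piOf lam b c).map (fun p => p.2.1) = lam + lam.map b + lam.map c := by
  have m : Measurable (fun p : R3 × R3 × R3 => p.2.1) := measurable_fst.comp measurable_snd
  rw [piOf, Measure.map_add _ _ m, Measure.map_add _ _ m,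
    Measure.map_map m (meas_t1 hb hc), Measure.map_map m (meas_t2 hb hc),
    Measure.map_map m (meas_t3 hb hc)]
  simp only [Function.comp_def, Measure.map_id']
  abel

lemma piOf_map3 : (piOf lam b c).map (fun p => p.2.2) = lam + lam.map b + lam.map c := by
  have m : Measurable (fun p : R3 × R3 × R3 => p.2.2) := measurable_snd.comp measurable_snd
  rw [piOf, Measure.map_add _ _ m, Measure.map_add _ _ m,
    Measure.map_map m (meas_t1 hb hc), Measure.map_map m (meas_t2 hb hc),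
    Measure.map_map m (meas_t3 hb hc)]
  simp only [Function.comp_def, Measure.map_id']
  abel

lemma piOf_lintegral :
    ∫⁻ p, coulomb p.1 p.2.1 p.2.2 ∂(piOf lam b c) = 3 * ∫⁻ a, coulomb a (b a) (c a) ∂lam := by
  have m := measurable_coulomb
  rw [piOf, lintegral_add_measure, lintegral_add_measure, lintegral_map m (meas_t1 hb hc),
    lintegral_map m (meas_t2 hb hc), lintegral_map m (meas_t3 hb hc)]
  have h2 : ∀ a, coulomb (b a) (c a) a = coulomb a (b a) (c a) := fun a => coulomb_rot _ _ _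
  have h3 : ∀ a, coulomb (c a) a (b a) = coulomb a (b a) (c a) := by
    intro a
    rw [coulomb_rot (b a) (c a) a, coulomb_rot a (b a) (c a)]
  simp only [h2, h3]
  ring

end

section Scheme

variable (lam : Measure R3) (s : Fin 4 → R3 → R3)

lemma muOf_prob [IsProbabilityMeasure lam] (hs : ∀ j, Measurable (s j)) :
    IsProbabilityMeasure (muOf lam s) := by
  refine ⟨?_⟩
  rw [muOf_apply lam s hs MeasurableSet.univ]
  simp only [Set.preimage_univ, measure_univ, Finset.sum_const, Finset.card_univ, Fintype.card_fin,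
    nsmul_eq_mul, mul_one]
  have : (2 : ℝ≥0∞) + (4 : ℕ) = 6 := by norm_num
  rw [this]
  exact ENNReal.inv_mul_cancel (by norm_num) (by norm_num)

lemma muOf_compl_null (hs : ∀ j, Measurable (s j)) {A0 S : Set R3} (hS : MeasurableSet S)
    (hlam : lam A0ᶜ = 0) (hAS : A0 ⊆ S) (hsS : ∀ j, ∀ a ∈ A0, s j a ∈ S) :
    muOf lam s Sᶜ = 0 := by
  have hnull : ∀ k, lam (s k ⁻¹' Sᶜ) = 0 := by
    intro k
    refine measure_mono_null ?_ hlam
    intro a ha haA
    exact ha (hsS k a haA)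
  have h0 : lam Sᶜ = 0 := measure_mono_null (Set.compl_subset_compl.mpr hAS) hlam
  rw [muOf_apply lam s hs hS.compl, h0, mul_zero, zero_add,
    Finset.sum_eq_zero (fun k _ => hnull k), mul_zero]

lemma muOf_ge (hs : ∀ j, Measurable (s j)) {W : Set R3} (hW : MeasurableSet W) :
    (6 : ℝ≥0∞)⁻¹ * (2 * lam W) ≤ muOf lam s W := by
  rw [muOf_apply lam s hs hW]
  gcongr
  exact le_self_add

lemma lam_ac_muOf (hs : ∀ j, Measurable (s j)) : lam ≪ muOf lam s := by
  refine Measure.AbsolutelyContinuous.mk ?_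
  intro W hW h0
  have h1 := muOf_ge lam s hs hW
  rw [h0, nonpos_iff_eq_zero] at h1
  have h2 : (6 : ℝ≥0∞)⁻¹ ≠ 0 := by simp
  have h3 := (mul_eq_zero.mp h1).resolve_left h2
  exact (mul_eq_zero.mp h3).resolve_left (by norm_num)

lemma muOf_lintegral (hs : ∀ j, Measurable (s j)) {U : R3 → ℝ≥0∞} (hU : Measurable U) :
    ∫⁻ x, U x ∂(muOf lam s)
      = (6 : ℝ≥0∞)⁻¹ * (2 * ∫⁻ a, U a ∂lam + ∑ k, ∫⁻ a, U (s k a) ∂lam) := by
  rw [muOf, lintegral_smul_measure, lintegral_add_measure, lintegral_smul_measure,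
    lintegral_finsetSum_measure]
  simp only [smul_eq_mul]
  congr 2
  refine Finset.sum_congr rfl fun k _ => ?_
  rw [lintegral_map hU (hs k)]

/-- The coupling supported on the two sheets and their rotations. -/
noncomputable def piZero : Measure (R3 × R3 × R3) :=
  (6 : ℝ≥0∞)⁻¹ • (piOf lam (s 0) (s 1) + piOf lam (s 2) (s 3))

lemma marg_eq : lam + lam.map (s 0) + lam.map (s 1) + (lam + lam.map (s 2) + lam.map (s 3))
    = (2 : ℝ≥0∞) • lam + ∑ k, lam.map (s k) := by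
  rw [Fin.sum_univ_four, two_smul]
  abel

lemma piZero_coupling (hs : ∀ j, Measurable (s j)) : IsCoupling (muOf lam s) (piZero lam s) := by
  refine ⟨?_, ?_, ?_⟩
  · rw [piZero, Measure.map_smul, Measure.map_add _ _ measurable_fst,
      piOf_map1 lam (hs 0) (hs 1), piOf_map1 lam (hs 2) (hs 3), marg_eq]
    rfl
  · have m : Measurable (fun p : R3 × R3 × R3 => p.2.1) := measurable_fst.comp measurable_snd
    rw [piZero, Measure.map_smul, Measure.map_add _ _ m,
      piOf_map2 lam (hs 0) (hs 1), piOf_map2 lam (hs 2) (hs 3), marg_eq]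
    rfl
  · have m : Measurable (fun p : R3 × R3 × R3 => p.2.2) := measurable_snd.comp measurable_snd
    rw [piZero, Measure.map_smul, Measure.map_add _ _ m,
      piOf_map3 lam (hs 0) (hs 1), piOf_map3 lam (hs 2) (hs 3), marg_eq]
    rfl

lemma sheet_lintegral_le {A0 : Set R3} (haeA : ∀ᵐ a ∂lam, a ∈ A0) {U : R3 → ℝ≥0∞} (hU : Measurable U)
    {b c : R3 → R3} (hb : Measurable b) (hc : Measurable c)
    (h : ∀ a ∈ A0, coulomb a (b a) (c a) ≤ U a + U (b a) + U (c a)) :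
    ∫⁻ a, coulomb a (b a) (c a) ∂lam ≤ ∫⁻ a, U a ∂lam + ∫⁻ a, U (b a) ∂lam + ∫⁻ a, U (c a) ∂lam := by
  calc ∫⁻ a, coulomb a (b a) (c a) ∂lam
      ≤ ∫⁻ a, (U a + U (b a) + U (c a)) ∂lam := by
        refine lintegral_mono_ae ?_
        filter_upwards [haeA] with a ha using h a ha
    _ = _ := by
        have m1 : Measurable (fun a => U (c a)) := hU.comp hc
        have m2 : Measurable (fun a => U (b a)) := hU.comp hb
        rw [lintegral_add_right _ m1, lintegral_add_right _ m2]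

lemma piZero_cost (hs : ∀ j, Measurable (s j)) {A0 : Set R3} (hlam : lam A0ᶜ = 0)
    {U : R3 → ℝ≥0∞} (hU : Measurable U)
    (hsheet0 : ∀ a ∈ A0, coulomb a (s 0 a) (s 1 a) ≤ U a + U (s 0 a) + U (s 1 a))
    (hsheet1 : ∀ a ∈ A0, coulomb a (s 2 a) (s 3 a) ≤ U a + U (s 2 a) + U (s 3 a)) :
    ∫⁻ p, coulomb p.1 p.2.1 p.2.2 ∂(piZero lam s) ≤ 3 * ∫⁻ x, U x ∂(muOf lam s) := by
  have haeA : ∀ᵐ a ∂lam, a ∈ A0 := by
    rw [ae_iff]; exact hlam
  rw [piZero, lintegral_smul_measure, lintegral_add_measure, piOf_lintegral lam (hs 0) (hs 1),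
    piOf_lintegral lam (hs 2) (hs 3), muOf_lintegral lam s hs hU, Fin.sum_univ_four]
  simp only [smul_eq_mul]
  have h0 := sheet_lintegral_le lam haeA hU (hs 0) (hs 1) hsheet0
  have h1 := sheet_lintegral_le lam haeA hU (hs 2) (hs 3) hsheet1
  calc (6 : ℝ≥0∞)⁻¹ * (3 * ∫⁻ a, coulomb a (s 0 a) (s 1 a) ∂lam
        + 3 * ∫⁻ a, coulomb a (s 2 a) (s 3 a) ∂lam)
      ≤ (6 : ℝ≥0∞)⁻¹ * (3 * (∫⁻ a, U a ∂lam + ∫⁻ a, U (s 0 a) ∂lam + ∫⁻ a, U (s 1 a) ∂lam)
        + 3 * (∫⁻ a, U a ∂lam + ∫⁻ a, U (s 2 a) ∂lam + ∫⁻ a, U (s 3 a) ∂lam)) := by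
        gcongr
    _ = _ := by
        ring

lemma kantorovich_le (hs : ∀ j, Measurable (s j)) {A0 : Set R3} (hlam : lam A0ᶜ = 0)
    {U : R3 → ℝ≥0∞} (hU : Measurable U)
    (hsheet0 : ∀ a ∈ A0, coulomb a (s 0 a) (s 1 a) ≤ U a + U (s 0 a) + U (s 1 a))
    (hsheet1 : ∀ a ∈ A0, coulomb a (s 2 a) (s 3 a) ≤ U a + U (s 2 a) + U (s 3 a)) :
    kantorovich (muOf lam s) ≤ 3 * ∫⁻ x, U x ∂(muOf lam s) :=
  iInf_le_of_le (piZero lam s) (iInf_le_of_le (piZero_coupling lam s hs)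
    (piZero_cost lam s hs hlam hU hsheet0 hsheet1))

/-- Each branch carries no mass under a measure preserving `T`. -/
lemma branch_null [IsFiniteMeasure lam] (hs : ∀ j, Measurable (s j))
    {A0 : Set R3} (hA0 : MeasurableSet A0) (hlam : lam A0ᶜ = 0)
    {g : R3 → R3} {R : Fin 4 → Set R3} (j : Fin 4) (hg : Measurable g)
    (hR : MeasurableSet (R j))
    (hsR : ∀ k, ∀ a ∈ A0, s k a ∈ R k)
    (hRA : Disjoint (R j) A0)
    (hRR : ∀ k, k ≠ j → Disjoint (R k) (R j))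
    (hgs : ∀ a ∈ A0, g (s j a) = a)
    {T : R3 → R3} (hT : Measurable T) (hmap : (muOf lam s).map T = muOf lam s) :
    lam {a | a ∈ A0 ∧ T a = s j a} = 0 := by
  set F : Set R3 := {a | a ∈ A0 ∧ T a = s j a} with hF
  have hFm : MeasurableSet F := hA0.inter (measurableSet_eq_fun hT (hs j))
  set W : Set R3 := R j ∩ g ⁻¹' F with hW
  have hWm : MeasurableSet W := hR.inter (hg hFm)
  have hW0 : lam W = 0 := by
    refine measure_mono_null ?_ hlam
    intro a ha haA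
    exact Set.disjoint_left.mp hRA ha.1 haA
  have hWk : ∀ k, k ≠ j → lam (s k ⁻¹' W) = 0 := by
    intro k hk
    refine measure_mono_null ?_ hlam
    intro a ha haA
    exact Set.disjoint_left.mp (hRR k hk) (hsR k a haA) ha.1
  have hWj : lam (s j ⁻¹' W) ≤ lam F := by
    have hsub : s j ⁻¹' W ⊆ F ∪ A0ᶜ := by
      intro a ha
      by_cases haA : a ∈ A0
      · left
        have := ha.2
        rw [Set.mem_preimage, hgs a haA] at this
        exact this
      · right; exact haA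
    calc lam (s j ⁻¹' W) ≤ lam (F ∪ A0ᶜ) := measure_mono hsub
      _ ≤ lam F + lam A0ᶜ := measure_union_le _ _
      _ = lam F := by rw [hlam, add_zero]
  have hμW : muOf lam s W ≤ (6 : ℝ≥0∞)⁻¹ * lam F := by
    rw [muOf_apply lam s hs hWm, hW0, mul_zero, zero_add, Finset.sum_eq_single j]
    · gcongr
    · intro k _ hk; exact hWk k hk
    · intro h; exact absurd (Finset.mem_univ j) h
  have hsubT : F ⊆ T ⁻¹' W := by
    intro a ha
    have h1 : T a = s j a := ha.2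
    refine ⟨?_, ?_⟩
    · rw [h1]; exact hsR j a ha.1
    · rw [Set.mem_preimage, h1, hgs a ha.1]; exact ha
  have hμT : muOf lam s (T ⁻¹' W) = muOf lam s W := by
    rw [← Measure.map_apply hT hWm, hmap]
  have hchain : (6 : ℝ≥0∞)⁻¹ * (2 * lam F) ≤ (6 : ℝ≥0∞)⁻¹ * lam F :=
    calc (6 : ℝ≥0∞)⁻¹ * (2 * lam F) ≤ muOf lam s F := muOf_ge lam s hs hFm
      _ ≤ muOf lam s (T ⁻¹' W) := measure_mono hsubT
      _ = muOf lam s W := hμT
      _ ≤ _ := hμW
  have hcancel : 2 * lam F ≤ lam F := by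
    have h6 : (6 : ℝ≥0∞)⁻¹ ≠ 0 := by simp
    have h6' : (6 : ℝ≥0∞)⁻¹ ≠ ⊤ := by simp
    exact (ENNReal.mul_le_mul_iff_right h6 h6').mp hchain
  have hfin : lam F ≠ ⊤ := measure_ne_top _ _
  have h2 : lam F + lam F ≤ lam F + 0 := by
    rw [add_zero]; rwa [two_mul] at hcancel
  exact le_antisymm ((ENNReal.add_le_add_iff_left hfin).mp h2) bot_le

/-- The cost of an optimal map agrees almost everywhere with the sum of the potentials. -/
lemma monge_ae_eq [IsProbabilityMeasure lam] (hs : ∀ j, Measurable (s j))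
    {A0 S : Set R3} (hS : MeasurableSet S) (hlam : lam A0ᶜ = 0)
    (hAS : A0 ⊆ S) (hsS : ∀ j, ∀ a ∈ A0, s j a ∈ S)
    {U : R3 → ℝ≥0∞} (hU : Measurable U)
    (hUtop : ∀ x ∈ S, U x ≤ 2)
    (hineq : ∀ x ∈ S, ∀ y ∈ S, ∀ z ∈ S, U x + U y + U z ≤ coulomb x y z)
    (hkant : kantorovich (muOf lam s) ≤ 3 * ∫⁻ x, U x ∂(muOf lam s))
    {T₂ T₃ : R3 → R3} (hT₂ : Measurable T₂) (hT₃ : Measurable T₃)
    (hmap₂ : (muOf lam s).map T₂ = muOf lam s) (hmap₃ : (muOf lam s).map T₃ = muOf lam s)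
    (hopt : ∫⁻ x, coulomb x (T₂ x) (T₃ x) ∂(muOf lam s) = kantorovich (muOf lam s)) :
    ∀ᵐ x ∂(muOf lam s), T₂ x ∈ S ∧ T₃ x ∈ S ∧
      U x + U (T₂ x) + U (T₃ x) = coulomb x (T₂ x) (T₃ x) := by
  have hSc := muOf_compl_null lam s hs hS hlam hAS hsS
  have haeS : ∀ᵐ x ∂(muOf lam s), x ∈ S := by
    rw [ae_iff]; exact hSc
  have hprob := muOf_prob lam s hs
  have hUfin : ∫⁻ x, U x ∂(muOf lam s) ≤ 2 := by
    calc ∫⁻ x, U x ∂(muOf lam s) ≤ ∫⁻ _, 2 ∂(muOf lam s) := by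
          refine lintegral_mono_ae ?_
          filter_upwards [haeS] with x hx using hUtop x hx
      _ = 2 := by simp
  have hMfin : 3 * ∫⁻ x, U x ∂(muOf lam s) < ⊤ :=
    ENNReal.mul_lt_top (by norm_num) (lt_of_le_of_lt hUfin (by norm_num))
  have hS₂ : ∀ᵐ x ∂(muOf lam s), T₂ x ∈ S := by
    have : muOf lam s (T₂ ⁻¹' Sᶜ) = 0 := by
      rw [← Measure.map_apply hT₂ hS.compl, hmap₂]; exact hSc
    rw [ae_iff]; exact this
  have hS₃ : ∀ᵐ x ∂(muOf lam s), T₃ x ∈ S := by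
    have : muOf lam s (T₃ ⁻¹' Sᶜ) = 0 := by
      rw [← Measure.map_apply hT₃ hS.compl, hmap₃]; exact hSc
    rw [ae_iff]; exact this
  have hle : (fun x => U x + U (T₂ x) + U (T₃ x)) ≤ᵐ[muOf lam s]
      fun x => coulomb x (T₂ x) (T₃ x) := by
    filter_upwards [haeS, hS₂, hS₃] with x h1 h2 h3 using hineq x h1 _ h2 _ h3
  have hfint : ∫⁻ x, (U x + U (T₂ x) + U (T₃ x)) ∂(muOf lam s)
      = 3 * ∫⁻ x, U x ∂(muOf lam s) := by
    have m3 : Measurable (fun a => U (T₃ a)) := hU.comp hT₃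
    have m2 : Measurable (fun a => U (T₂ a)) := hU.comp hT₂
    rw [lintegral_add_right _ m3, lintegral_add_right _ m2]
    have h2 : ∫⁻ x, U (T₂ x) ∂(muOf lam s) = ∫⁻ x, U x ∂(muOf lam s) := by
      rw [← lintegral_map hU hT₂, hmap₂]
    have h3 : ∫⁻ x, U (T₃ x) ∂(muOf lam s) = ∫⁻ x, U x ∂(muOf lam s) := by
      rw [← lintegral_map hU hT₃, hmap₃]
    rw [h2, h3]
    ring
  have hhmeas : Measurable (fun x => coulomb x (T₂ x) (T₃ x)) := by
    have h := measurable_coulomb.comp (meas_t1 hT₂ hT₃)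
    exact h
  have heq : (fun x => U x + U (T₂ x) + U (T₃ x)) =ᵐ[muOf lam s]
      fun x => coulomb x (T₂ x) (T₃ x) := by
    refine ae_eq_of_ae_le_of_lintegral_le hle ?_ hhmeas.aemeasurable ?_
    · rw [hfint]; exact hMfin.ne
    · rw [hfint, hopt]; exact hkant
  filter_upwards [heq, hS₂, hS₃] with a h1 h2 h3 using ⟨h2, h3, h1⟩

/-- An optimal map follows a branch almost everywhere on the ball. -/
lemma monge_contact [IsProbabilityMeasure lam] (hs : ∀ j, Measurable (s j))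
    {A0 S : Set R3} (hS : MeasurableSet S) (hlam : lam A0ᶜ = 0)
    (hAS : A0 ⊆ S) (hsS : ∀ j, ∀ a ∈ A0, s j a ∈ S)
    {U : R3 → ℝ≥0∞} (hU : Measurable U)
    (hUtop : ∀ x ∈ S, U x ≤ 2)
    (hineq : ∀ x ∈ S, ∀ y ∈ S, ∀ z ∈ S, U x + U y + U z ≤ coulomb x y z)
    (hsheet0 : ∀ a ∈ A0, coulomb a (s 0 a) (s 1 a) ≤ U a + U (s 0 a) + U (s 1 a))
    (hsheet1 : ∀ a ∈ A0, coulomb a (s 2 a) (s 3 a) ≤ U a + U (s 2 a) + U (s 3 a))
    (hcontact : ∀ a ∈ A0, ∀ y ∈ S, ∀ z ∈ S, coulomb a y z ≤ U a + U y + U z → ∃ j, y = s j a)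
    {T₂ T₃ : R3 → R3} (hT₂ : Measurable T₂) (hT₃ : Measurable T₃)
    (hmap₂ : (muOf lam s).map T₂ = muOf lam s) (hmap₃ : (muOf lam s).map T₃ = muOf lam s)
    (hopt : ∫⁻ x, coulomb x (T₂ x) (T₃ x) ∂(muOf lam s) = kantorovich (muOf lam s)) :
    ∀ᵐ a ∂lam, ∃ j, T₂ a = s j a := by
  have hkant := kantorovich_le lam s hs hlam hU hsheet0 hsheet1
  have haeA : ∀ᵐ a ∂lam, a ∈ A0 := by
    rw [ae_iff]; exact hlam
  have hae := monge_ae_eq lam s hs hS hlam hAS hsS hU hUtop hineq hkant hT₂ hT₃ hmap₂ hmap₃ hopt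
  have h1 : ∀ᵐ a ∂(muOf lam s), a ∈ A0 → ∃ j, T₂ a = s j a := by
    filter_upwards [hae] with a h1 ha
    exact hcontact a ha _ h1.1 _ h1.2.1 (le_of_eq h1.2.2.symm)
  have h2 : ∀ᵐ a ∂lam, a ∈ A0 → ∃ j, T₂ a = s j a := (lam_ac_muOf lam s hs).ae_le h1
  filter_upwards [h2, haeA] with a h2 h3 using h2 h3

/-- The abstract scheme: a dual potential with the contact structure rules out Monge plans. -/
theorem abstract_main [IsProbabilityMeasure lam] (A0 S : Set R3)
    (hA0 : MeasurableSet A0) (hS : MeasurableSet S) (hlam : lam A0ᶜ = 0)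
    (g : Fin 4 → R3 → R3) (hs : ∀ j, Measurable (s j)) (hg : ∀ j, Measurable (g j))
    (R : Fin 4 → Set R3) (hR : ∀ j, MeasurableSet (R j))
    (hsR : ∀ j, ∀ a ∈ A0, s j a ∈ R j)
    (hRA : ∀ j, Disjoint (R j) A0)
    (hRR : ∀ j k, j ≠ k → Disjoint (R j) (R k))
    (hgs : ∀ j, ∀ a ∈ A0, g j (s j a) = a)
    (hAS : A0 ⊆ S) (hsS : ∀ j, ∀ a ∈ A0, s j a ∈ S)
    (U : R3 → ℝ≥0∞) (hU : Measurable U)
    (hUtop : ∀ x ∈ S, U x ≤ 2)
    (hineq : ∀ x ∈ S, ∀ y ∈ S, ∀ z ∈ S, U x + U y + U z ≤ coulomb x y z)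
    (hsheet0 : ∀ a ∈ A0, coulomb a (s 0 a) (s 1 a) ≤ U a + U (s 0 a) + U (s 1 a))
    (hsheet1 : ∀ a ∈ A0, coulomb a (s 2 a) (s 3 a) ≤ U a + U (s 2 a) + U (s 3 a))
    (hcontact : ∀ a ∈ A0, ∀ y ∈ S, ∀ z ∈ S, coulomb a y z ≤ U a + U y + U z → ∃ j, y = s j a) :
    IsProbabilityMeasure (muOf lam s) ∧ kantorovich (muOf lam s) < ⊤ ∧
      ¬ ∃ T₂ T₃ : R3 → R3, Measurable T₂ ∧ Measurable T₃ ∧
        (muOf lam s).map T₂ = muOf lam s ∧ (muOf lam s).map T₃ = muOf lam s ∧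
        ∫⁻ x, coulomb x (T₂ x) (T₃ x) ∂(muOf lam s) = kantorovich (muOf lam s) := by
  have hSc := muOf_compl_null lam s hs hS hlam hAS hsS
  have hkant := kantorovich_le lam s hs hlam hU hsheet0 hsheet1
  have hprob := muOf_prob lam s hs
  have haeS : ∀ᵐ x ∂(muOf lam s), x ∈ S := by
    rw [ae_iff]; exact hSc
  have hUfin : ∫⁻ x, U x ∂(muOf lam s) ≤ 2 := by
    calc ∫⁻ x, U x ∂(muOf lam s) ≤ ∫⁻ _, 2 ∂(muOf lam s) := by
          refine lintegral_mono_ae ?_
          filter_upwards [haeS] with x hx using hUtop x hx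
      _ = 2 := by simp
  have hMfin : 3 * ∫⁻ x, U x ∂(muOf lam s) < ⊤ :=
    ENNReal.mul_lt_top (by norm_num) (lt_of_le_of_lt hUfin (by norm_num))
  refine ⟨hprob, lt_of_le_of_lt hkant hMfin, ?_⟩
  rintro ⟨T₂, T₃, hT₂, hT₃, hmap₂, hmap₃, hopt⟩
  have hbranch := monge_contact lam s hs hS hlam hAS hsS hU hUtop hineq hsheet0 hsheet1 hcontact
    hT₂ hT₃ hmap₂ hmap₃ hopt
  have hzero : ∀ j, lam {a | a ∈ A0 ∧ T₂ a = s j a} = 0 := fun j =>
    branch_null lam s hs hA0 hlam j (hg j) (hR j) hsR (hRA j) (fun k hk => hRR k j hk) (hgs j)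
      hT₂ hmap₂
  have haeA : ∀ᵐ a ∂lam, a ∈ A0 := by
    rw [ae_iff]; exact hlam
  have hall : lam Set.univ = 0 := by
    have hsub : (Set.univ : Set R3) ⊆ (⋃ j, {a | a ∈ A0 ∧ T₂ a = s j a})
        ∪ {a | ¬ (a ∈ A0 ∧ ∃ j, T₂ a = s j a)} := by
      intro a _
      by_cases h : a ∈ A0 ∧ ∃ j, T₂ a = s j a
      · obtain ⟨h1, j, h2⟩ := h
        left
        exact Set.mem_iUnion.mpr ⟨j, h1, h2⟩
      · right; exact h
    have hn : lam {a | ¬ (a ∈ A0 ∧ ∃ j, T₂ a = s j a)} = 0 := by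
      rw [← ae_iff]
      filter_upwards [haeA, hbranch] with a h1 h2 using ⟨h1, h2⟩
    refine measure_mono_null hsub ?_
    refine measure_union_null ?_ hn
    exact measure_iUnion_null hzero
  rw [measure_univ] at hall
  exact one_ne_zero hall

end Scheme

/-- Pushing a measure with a Lipschitz left inverse keeps absolute continuity. -/
lemma map_ac (lam : Measure R3) (hlam_ac : lam ≪ volume) (A0 : Set R3) (hlam : lam A0ᶜ = 0)
    {f g : R3 → R3} (hf : Measurable f) {L : NNReal} (hg : LipschitzWith L g)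
    (hgf : ∀ a ∈ A0, g (f a) = a) : lam.map f ≪ volume := by
  refine Measure.AbsolutelyContinuous.mk ?_
  intro N hN h0
  rw [Measure.map_apply hf hN]
  have hH : (μH[((3 : ℕ) : ℝ)] : Measure R3) N = 0 :=
    (Measure.absolutelyContinuous_isAddHaarMeasure (μH[((3 : ℕ) : ℝ)] : Measure R3) volume) h0
  have himg : (μH[((3 : ℕ) : ℝ)] : Measure R3) (g '' N) = 0 := by
    have h1 := hg.hausdorffMeasure_image_le (d := ((3 : ℕ) : ℝ)) (by norm_num) N
    rw [hH, mul_zero] at h1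
    exact le_antisymm h1 bot_le
  have hvol : volume (g '' N) = 0 :=
    (Measure.absolutelyContinuous_isAddHaarMeasure volume (μH[((3 : ℕ) : ℝ)] : Measure R3)) himg
  have hl : lam (g '' N) = 0 := hlam_ac hvol
  have hsub : f ⁻¹' N ⊆ g '' N ∪ A0ᶜ := by
    intro a ha
    by_cases haA : a ∈ A0
    · left
      exact ⟨f a, ha, hgf a haA⟩
    · right; exact haA
  exact measure_mono_null hsub (measure_union_null hl hlam)

lemma muOf_ac (lam : Measure R3) (hlam_ac : lam ≪ volume) (s : Fin 4 → R3 → R3)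
    (hs : ∀ k, lam.map (s k) ≪ volume) : muOf lam s ≪ volume := by
  refine Measure.AbsolutelyContinuous.smul_left ?_ _
  refine Measure.AbsolutelyContinuous.add_left ?_ ?_
  · exact Measure.AbsolutelyContinuous.smul_left hlam_ac _
  · rw [Fin.sum_univ_four]
    refine Measure.AbsolutelyContinuous.add_left
      (Measure.AbsolutelyContinuous.add_left
        (Measure.AbsolutelyContinuous.add_left (hs 0) (hs 1)) (hs 2)) (hs 3)

end Vale.Agent.P121
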