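import Mathlib

open scoped RealInnerProductSpace

namespace Vale.Agent.P121

variable {V : Type*} [NormedAddCommGroup V] [InnerProductSpace ℝ V]

/-- The inverse-square field `x / ‖x‖³`. -/
noncomputable def G (x : V) : V := (‖x‖ ^ 3)⁻¹ • x

/-- The inverse of `G`. -/
noncomputable def H (w : V) : V := (‖w‖ * √‖w‖)⁻¹ • w

lemma norm_G (x : V) (hx : x ≠ 0) : ‖G x‖ = (‖x‖ ^ 2)⁻¹ := by
  have hs : 0 < ‖x‖ := norm_pos_iff.mpr hx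
  rw [G, norm_smul, norm_inv, norm_pow, norm_norm]
  field_simp

lemma G_neg (x : V) : G (-x) = - G x := by
  simp [G]

lemma G_unit {v : V} (hv : ‖v‖ = 1) : G v = v := by
  simp [G, hv]

lemma G_H (w : V) (hw : w ≠ 0) : G (H w) = w := by
  have hs : 0 < ‖w‖ := norm_pos_iff.mpr hw
  have hr : 0 < √‖w‖ := Real.sqrt_pos.mpr hs
  have hrr : √‖w‖ * √‖w‖ = ‖w‖ := Real.mul_self_sqrt hs.le
  have hn : ‖H w‖ = (√‖w‖)⁻¹ := by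
    rw [H, norm_smul, norm_inv, norm_mul, norm_norm, Real.norm_of_nonneg hr.le]
    field_simp
  rw [G, hn, H, smul_smul]
  have : ((√‖w‖)⁻¹ ^ 3)⁻¹ * (‖w‖ * √‖w‖)⁻¹ = 1 := by
    have : ‖w‖ * √‖w‖ = √‖w‖ ^ 3 := by
      calc ‖w‖ * √‖w‖ = (√‖w‖ * √‖w‖) * √‖w‖ := by rw [hrr]
        _ = √‖w‖ ^ 3 := by ring
    rw [this]
    field_simp
  rw [this, one_smul]

lemma norm_H_sq (w : V) (hw : w ≠ 0) : ‖H w‖ ^ 2 = ‖w‖⁻¹ := by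
  have hs : 0 < ‖w‖ := norm_pos_iff.mpr hw
  have hr : 0 < √‖w‖ := Real.sqrt_pos.mpr hs
  have hrr : √‖w‖ * √‖w‖ = ‖w‖ := Real.mul_self_sqrt hs.le
  have hn : ‖H w‖ = (√‖w‖)⁻¹ := by
    rw [H, norm_smul, norm_inv, norm_mul, norm_norm, Real.norm_of_nonneg hr.le]
    field_simp
  rw [hn, inv_pow, sq, hrr]

/-- Exact formula for the squared distance between two values of `G`. -/
lemma norm_G_sub_sq (x y : V) (hx : x ≠ 0) (hy : y ≠ 0) :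
    ‖G x - G y‖ ^ 2 =
      (‖x‖⁻¹ - ‖y‖⁻¹) * (‖x‖⁻¹ ^ 3 - ‖y‖⁻¹ ^ 3) + ‖x - y‖ ^ 2 * (‖x‖⁻¹ ^ 3 * ‖y‖⁻¹ ^ 3) := by
  have hs : 0 < ‖x‖ := norm_pos_iff.mpr hx
  have ht : 0 < ‖y‖ := norm_pos_iff.mpr hy
  have h1 := norm_sub_sq_real (G x) (G y)
  have h2 := norm_sub_sq_real x y
  have h3 : ⟪G x, G y⟫ = (‖x‖ ^ 3)⁻¹ * (‖y‖ ^ 3)⁻¹ * ⟪x, y⟫ := by
    rw [G, G, inner_smul_left, inner_smul_right]
    simp
    ring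
  have h4 : ⟪x, y⟫ = (‖x‖ ^ 2 + ‖y‖ ^ 2 - ‖x - y‖ ^ 2) / 2 := by linarith
  rw [h1, h3, h4, norm_G x hx, norm_G y hy]
  field_simp
  ring

/-- Upper Lipschitz estimate for `G`. -/
lemma G_lip_upper (x y : V) {m : ℝ} (hm : 0 < m) (hx : m ≤ ‖x‖) (hy : m ≤ ‖y‖) :
    ‖G x - G y‖ ≤ 2 / m ^ 3 * ‖x - y‖ := by
  have hs : 0 < ‖x‖ := lt_of_lt_of_le hm hx
  have ht : 0 < ‖y‖ := lt_of_lt_of_le hm hy
  have hx0 : x ≠ 0 := norm_pos_iff.mp hs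
  have hy0 : y ≠ 0 := norm_pos_iff.mp ht
  set p := ‖x‖⁻¹ with hp
  set r := ‖y‖⁻¹ with hr
  set D := ‖x - y‖ with hD
  have hp0 : 0 < p := inv_pos.mpr hs
  have hr0 : 0 < r := inv_pos.mpr ht
  have hD0 : 0 ≤ D := norm_nonneg _
  have hpm : p ≤ m⁻¹ := inv_anti₀ hm hx
  have hrm : r ≤ m⁻¹ := inv_anti₀ hm hy
  have hdiff : (p - r) ^ 2 ≤ D ^ 2 * (p ^ 2 * r ^ 2) := by
    have e1 : p - r = (‖y‖ - ‖x‖) * (p * r) := by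
      rw [hp, hr]; field_simp
    have e2 : |‖y‖ - ‖x‖| ≤ D := by
      rw [hD, norm_sub_rev x y]; exact abs_norm_sub_norm_le y x
    have e3 : (‖y‖ - ‖x‖) ^ 2 ≤ D ^ 2 := by
      rw [← sq_abs (‖y‖ - ‖x‖)]
      exact pow_le_pow_left₀ (abs_nonneg _) e2 2
    rw [e1, mul_pow, mul_pow]
    exact mul_le_mul_of_nonneg_right e3 (by positivity)
  have hsq : ‖G x - G y‖ ^ 2 ≤ (D * (p * r * (p + r))) ^ 2 := by
    rw [norm_G_sub_sq x y hx0 hy0]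
    have : (p - r) * (p ^ 3 - r ^ 3) = (p - r) ^ 2 * (p ^ 2 + p * r + r ^ 2) := by ring
    rw [this]
    have h5 : (p - r) ^ 2 * (p ^ 2 + p * r + r ^ 2)
        ≤ D ^ 2 * (p ^ 2 * r ^ 2) * (p ^ 2 + p * r + r ^ 2) :=
      mul_le_mul_of_nonneg_right hdiff (by positivity)
    calc _ ≤ D ^ 2 * (p ^ 2 * r ^ 2) * (p ^ 2 + p * r + r ^ 2) + D ^ 2 * (p ^ 3 * r ^ 3) := by
            linarith
      _ = _ := by ring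
  have h6 : ‖G x - G y‖ ≤ D * (p * r * (p + r)) := by
    exact (sq_le_sq₀ (norm_nonneg _) (by positivity)).mp hsq
  have h7 : p * r * (p + r) ≤ 2 / m ^ 3 := by
    have hm' : 0 < m⁻¹ := inv_pos.mpr hm
    have h8 : p * r ≤ m⁻¹ * m⁻¹ := mul_le_mul hpm hrm hr0.le hm'.le
    have h9 : p + r ≤ 2 * m⁻¹ := by linarith
    calc p * r * (p + r) ≤ m⁻¹ * m⁻¹ * (2 * m⁻¹) := mul_le_mul h8 h9 (by positivity) (by positivity)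
      _ = 2 / m ^ 3 := by field_simp
  calc ‖G x - G y‖ ≤ D * (p * r * (p + r)) := h6
    _ ≤ D * (2 / m ^ 3) := mul_le_mul_of_nonneg_left h7 hD0
    _ = _ := by ring

/-- Lower Lipschitz estimate for `G`. -/
lemma G_lip_lower (x y : V) {M : ℝ} (hM : 0 < M) (hx0 : x ≠ 0) (hy0 : y ≠ 0)
    (hx : ‖x‖ ≤ M) (hy : ‖y‖ ≤ M) :
    ‖x - y‖ ≤ M ^ 3 * ‖G x - G y‖ := by
  have hs : 0 < ‖x‖ := norm_pos_iff.mpr hx0
  have ht : 0 < ‖y‖ := norm_pos_iff.mpr hy0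
  set p := ‖x‖⁻¹ with hp
  set r := ‖y‖⁻¹ with hr
  have hp0 : 0 < p := inv_pos.mpr hs
  have hr0 : 0 < r := inv_pos.mpr ht
  have hpM : M⁻¹ ≤ p := inv_anti₀ hs hx
  have hrM : M⁻¹ ≤ r := inv_anti₀ ht hy
  have h1 : ‖x - y‖ ^ 2 * (p ^ 3 * r ^ 3) ≤ ‖G x - G y‖ ^ 2 := by
    rw [norm_G_sub_sq x y hx0 hy0]
    have : 0 ≤ (p - r) * (p ^ 3 - r ^ 3) := by
      have : (p - r) * (p ^ 3 - r ^ 3) = (p - r) ^ 2 * (p ^ 2 + p * r + r ^ 2) := by ring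
      rw [this]; positivity
    linarith
  have hM' : 0 < M⁻¹ := inv_pos.mpr hM
  have h2 : M⁻¹ ^ 3 * M⁻¹ ^ 3 ≤ p ^ 3 * r ^ 3 :=
    mul_le_mul (pow_le_pow_left₀ hM'.le hpM 3) (pow_le_pow_left₀ hM'.le hrM 3)
      (by positivity) (by positivity)
  have h3 : ‖x - y‖ ^ 2 * (M⁻¹ ^ 3 * M⁻¹ ^ 3) ≤ ‖G x - G y‖ ^ 2 :=
    le_trans (mul_le_mul_of_nonneg_left h2 (by positivity)) h1
  have h4 : ‖x - y‖ ^ 2 ≤ (M ^ 3 * ‖G x - G y‖) ^ 2 := by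
    have h5 : (M ^ 3 * ‖G x - G y‖) ^ 2 = (M ^ 3) ^ 2 * ‖G x - G y‖ ^ 2 := by ring
    rw [h5]
    have h6 : ‖x - y‖ ^ 2 = (M ^ 3) ^ 2 * (‖x - y‖ ^ 2 * (M⁻¹ ^ 3 * M⁻¹ ^ 3)) := by
      field_simp
    rw [h6]
    exact mul_le_mul_of_nonneg_left h3 (by positivity)
  exact (sq_le_sq₀ (norm_nonneg _) (by positivity)).mp h4

/-- The convexity inequality for the Coulomb potential, with exact second order term. -/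
lemma key_ineq (x y : V) (hx : x ≠ 0) (hy : y ≠ 0) :
    ‖x‖⁻¹ - ⟪G x, y - x⟫ - ‖y - x‖ ^ 2 / (2 * ‖x‖ ^ 3) ≤ ‖y‖⁻¹ := by
  have hs : 0 < ‖x‖ := norm_pos_iff.mpr hx
  have ht : 0 < ‖y‖ := norm_pos_iff.mpr hy
  have h1 := norm_sub_sq_real y x
  have h2 : ⟪G x, y - x⟫ = (‖x‖ ^ 3)⁻¹ * (⟪x, y⟫ - ‖x‖ ^ 2) := by
    rw [G, inner_smul_left, inner_sub_right, real_inner_self_eq_norm_sq]
    simp
  have h3 : ⟪x, y⟫ = (‖y‖ ^ 2 + ‖x‖ ^ 2 - ‖y - x‖ ^ 2) / 2 := by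
    rw [real_inner_comm]; linarith
  have h4 : ‖x‖⁻¹ - ⟪G x, y - x⟫ - ‖y - x‖ ^ 2 / (2 * ‖x‖ ^ 3)
      = (3 * ‖x‖ ^ 2 - ‖y‖ ^ 2) / (2 * ‖x‖ ^ 3) := by
    rw [h2, h3]
    field_simp
    ring
  rw [h4, div_le_iff₀ (by positivity)]
  rw [inv_mul_eq_div, le_div_iff₀ ht]
  nlinarith [mul_nonneg (sq_nonneg (‖x‖ - ‖y‖)) (by positivity : 0 ≤ 2 * ‖x‖ + ‖y‖)]

/-- The tight inequality at a contact point. -/
lemma tight_ineq (K : ℝ) (a b c x z v : V)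
    (hab : 1 / 2 ≤ ‖a - b‖) (hac : 1 / 2 ≤ ‖a - c‖) (hbc : 1 / 2 ≤ ‖b - c‖)
    (E1 : G (a - b) + G (a - c) = K • a)
    (E3 : G (a - c) + G (b - c) = -(K • (c + v)))
    (hxb : x ≠ b) (hxz : x ≠ z) (hbz : b ≠ z) :
    (‖a - b‖⁻¹ + ‖a - c‖⁻¹ + ‖b - c‖⁻¹)
      + (K / 2 * ‖a‖ ^ 2 - K / 2 * ‖x‖ ^ 2) + (K / 2 * ‖c + v‖ ^ 2 - K / 2 * ‖z + v‖ ^ 2)
      + (K / 2 - 12) * (‖x - a‖ ^ 2 + ‖z - c‖ ^ 2)
      ≤ ‖x - b‖⁻¹ + ‖x - z‖⁻¹ + ‖b - z‖⁻¹ := by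
  have hab0 : a - b ≠ 0 := norm_pos_iff.mp (by linarith)
  have hac0 : a - c ≠ 0 := norm_pos_iff.mp (by linarith)
  have hbc0 : b - c ≠ 0 := norm_pos_iff.mp (by linarith)
  set dx := x - a with hdx
  set dz := z - c with hdz
  have k1 := key_ineq (a - b) (x - b) hab0 (sub_ne_zero.mpr hxb)
  have k2 := key_ineq (a - c) (x - z) hac0 (sub_ne_zero.mpr hxz)
  have k3 := key_ineq (b - c) (b - z) hbc0 (sub_ne_zero.mpr hbz)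
  have e1 : x - b - (a - b) = dx := by rw [hdx]; abel
  have e2 : x - z - (a - c) = dx - dz := by rw [hdx, hdz]; abel
  have e3 : b - z - (b - c) = -dz := by rw [hdz]; abel
  rw [e1] at k1
  rw [e2] at k2
  rw [e3] at k3
  -- second order bounds
  have bound : ∀ (s D : ℝ), 1 / 2 ≤ s → 0 ≤ D → D / (2 * s ^ 3) ≤ 4 * D := by
    intro s D hs hD
    have hs3 : (1 / 2 : ℝ) ^ 3 ≤ s ^ 3 := pow_le_pow_left₀ (by norm_num) hs 3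
    rw [div_le_iff₀ (by positivity)]
    nlinarith
  have b1 := bound ‖a - b‖ (‖dx‖ ^ 2) hab (by positivity)
  have b2 := bound ‖a - c‖ (‖dx - dz‖ ^ 2) hac (by positivity)
  have b3 := bound ‖b - c‖ (‖-dz‖ ^ 2) hbc (by positivity)
  have b4 : ‖dx - dz‖ ^ 2 ≤ 2 * ‖dx‖ ^ 2 + 2 * ‖dz‖ ^ 2 := by
    have h5 := norm_sub_sq_real dx dz
    have h6 := norm_add_sq_real dx dz
    have h7 : 0 ≤ ‖dx + dz‖ ^ 2 := by positivity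
    linarith
  have b5 : ‖-dz‖ = ‖dz‖ := norm_neg dz
  -- first order terms
  have f1 : ⟪G (a - b), dx⟫ + ⟪G (a - c), dx⟫ = K * ⟪a, dx⟫ := by
    rw [← inner_add_left, E1, inner_smul_left]; simp
  have f2 : ⟪G (a - c), dz⟫ + ⟪G (b - c), dz⟫ = - (K * ⟪c + v, dz⟫) := by
    rw [← inner_add_left, E3, inner_neg_left, inner_smul_left]; simp
  have g2 : ⟪G (a - c), dx - dz⟫ = ⟪G (a - c), dx⟫ - ⟪G (a - c), dz⟫ := inner_sub_right _ _ _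
  have g3 : ⟪G (b - c), -dz⟫ = - ⟪G (b - c), dz⟫ := inner_neg_right _ _
  rw [g2] at k2
  rw [g3] at k3
  -- the potentials
  have hxa : x = a + dx := by rw [hdx]; abel
  have hzc : z + v = (c + v) + dz := by rw [hdz]; abel
  have q1 : ‖x‖ ^ 2 = ‖a‖ ^ 2 + 2 * ⟪a, dx⟫ + ‖dx‖ ^ 2 := by
    rw [hxa, norm_add_sq_real]
  have q2 : ‖z + v‖ ^ 2 = ‖c + v‖ ^ 2 + 2 * ⟪c + v, dz⟫ + ‖dz‖ ^ 2 := by
    rw [hzc, norm_add_sq_real]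
  rw [q1, q2]
  rw [b5] at b3
  rw [b5] at k3
  nlinarith

end Vale.Agent.P121
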