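import Mathlib

open scoped ENNReal
open MeasureTheory

namespace Vale.Agent.P121

/-- Euclidean three-space. -/
abbrev R3 : Type := EuclideanSpace ℝ (Fin 3)

/-- The three-particle Coulomb cost, with value `⊤` as soon as two of the points coincide. -/
noncomputable def coulomb (x y z : R3) : ℝ≥0∞ :=
  (edist x y)⁻¹ + (edist x z)⁻¹ + (edist y z)⁻¹

/-- `π` is a coupling of three copies of `μ`: its three coordinate marginals all equal `μ`. -/
def IsCoupling (μ : Measure R3) (π : Measure (R3 × R3 × R3)) : Prop :=
  π.map (fun p => p.1) = μ ∧ π.map (fun p => p.2.1) = μ ∧ π.map (fun p => p.2.2) = μ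

/-- The Kantorovich value: the infimum of the Coulomb cost over all couplings of three copies
of `μ`. -/
noncomputable def kantorovich (μ : Measure R3) : ℝ≥0∞ :=
  ⨅ π : Measure (R3 × R3 × R3), ⨅ _ : IsCoupling μ π, ∫⁻ p, coulomb p.1 p.2.1 p.2.2 ∂π

end Vale.Agent.P121
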