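import Vale.Agent.P121.Sheet

open scoped RealInnerProductSpace
open Metric

namespace Vale.Agent.P121

variable {V : Type*} [NormedAddCommGroup V] [InnerProductSpace ℝ V]

/-- Potential on the central ball. -/
noncomputable def uA (x : V) : ℝ := 3 / 2 - 5000 * ‖x‖ ^ 2

/-- Potential near `-v`. -/
noncomputable def uC (v z : V) : ℝ := 1 / 2 - 5000 * ‖z + v‖ ^ 2

/-- The real valued cost at pairwise distinct points. -/
noncomputable def cost (x y z : V) : ℝ := ‖x - y‖⁻¹ + ‖x - z‖⁻¹ + ‖y - z‖⁻¹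

/-- Potential near `v`, as a function of the parameter of the sheet. -/
noncomputable def Vb (v : V) (b c : V → V) (a : V) : ℝ :=
  cost a (b a) (c a) - uA a - uC v (c a)

lemma cost_swap12 (x y z : V) : cost y x z = cost x y z := by
  unfold cost; rw [norm_sub_rev y x]; ring

lemma cost_swap23 (x y z : V) : cost x z y = cost x y z := by
  unfold cost; rw [norm_sub_rev z y]; ring

lemma tight_pot {v a b c x z : V} (hv : ‖v‖ = 1) (h : IsSheetPt v a b c)
    (hxb : x ≠ b) (hxz : x ≠ z) (hbz : b ≠ z) :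
    uA x + (cost a b c - uA a - uC v c) + uC v z + 4988 * (‖x - a‖ ^ 2 + ‖z - c‖ ^ 2)
      ≤ cost x b z := by
  obtain ⟨⟨n1, -⟩, ⟨n2, -⟩, ⟨n3, -⟩⟩ := h.norms hv
  have E1 := h.2.2.2.1
  have E3 := h.2.2.2.2
  have key := tight_ineq 10000 a b c x z v (by linarith) (by linarith) (by linarith) E1 E3
    hxb hxz hbz
  unfold uA uC cost
  linarith

lemma uA_bounds {a : V} (ha : ‖a‖ ≤ 1 / 10000000) : 0 ≤ uA a ∧ uA a ≤ 3 / 2 := by
  have h0 := norm_nonneg a
  have h1 : ‖a‖ ^ 2 ≤ (1 / 10000000 : ℝ) ^ 2 := pow_le_pow_left₀ h0 ha 2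
  have h2 : 0 ≤ ‖a‖ ^ 2 := by positivity
  unfold uA
  constructor
  · norm_num at h1 ⊢; linarith
  · linarith

lemma uC_bounds {v z : V} (hz : ‖z + v‖ ≤ 1 / 5000) : 0 ≤ uC v z ∧ uC v z ≤ 1 / 2 := by
  have h0 := norm_nonneg (z + v)
  have h1 : ‖z + v‖ ^ 2 ≤ (1 / 5000 : ℝ) ^ 2 := pow_le_pow_left₀ h0 hz 2
  have h2 : 0 ≤ ‖z + v‖ ^ 2 := by positivity
  unfold uC
  constructor
  · norm_num at h1 ⊢; linarith
  · linarith

lemma uC_lower {v z : V} (hz : ‖z + v‖ ≤ 1 / 5000) : 499 / 1000 ≤ uC v z := by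
  have h0 := norm_nonneg (z + v)
  have h1 : ‖z + v‖ ^ 2 ≤ (1 / 5000 : ℝ) ^ 2 := pow_le_pow_left₀ h0 hz 2
  unfold uC
  norm_num at h1 ⊢; linarith

lemma uA_lower {a : V} (ha : ‖a‖ ≤ 1 / 10000000) : 1499 / 1000 ≤ uA a := by
  have h0 := norm_nonneg a
  have h1 : ‖a‖ ^ 2 ≤ (1 / 10000000 : ℝ) ^ 2 := pow_le_pow_left₀ h0 ha 2
  unfold uA
  norm_num at h1 ⊢; linarith

lemma inv_between {s lo hi : ℝ} (hlo : 0 < lo) (h1 : lo ≤ s) (h2 : s ≤ hi) :
    hi⁻¹ ≤ s⁻¹ ∧ s⁻¹ ≤ lo⁻¹ :=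
  ⟨inv_anti₀ (lt_of_lt_of_le hlo h1) h2, inv_anti₀ hlo h1⟩

/-- Bounds for the potential on the `b` part of a sheet. -/
lemma sheet_cost_bounds {v a b c : V} (hv : ‖v‖ = 1) (h : IsSheetPt v a b c) :
    0 ≤ cost a b c - uA a - uC v c ∧ cost a b c - uA a - uC v c ≤ 52 / 100 := by
  obtain ⟨⟨n1, n1'⟩, ⟨n2, n2'⟩, ⟨n3, n3'⟩⟩ := h.norms hv
  obtain ⟨i1, i1'⟩ := inv_between (by norm_num) n1 n1'
  obtain ⟨i2, i2'⟩ := inv_between (by norm_num) n2 n2'
  obtain ⟨i3, i3'⟩ := inv_between (by norm_num) n3 n3'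
  obtain ⟨u1, u2⟩ := uA_bounds h.1
  obtain ⟨u3, u4⟩ := uC_bounds h.2.2.1
  have u5 := uA_lower h.1
  have u6 := uC_lower h.2.2.1
  unfold cost
  norm_num at i1 i1' i2 i2' i3 i3'
  constructor <;> linarith

/-! The five regions. -/

/-- First coordinate of the base points. -/
def alpha : Fin 5 → ℝ := ![0, 1, -1, 0, 0]

/-- Second coordinate of the base points. -/
def beta : Fin 5 → ℝ := ![0, 0, 0, 1, -1]

/-- The base points `0, e₀, -e₀, e₁, -e₁`. -/
noncomputable def pt (e : Fin 2 → V) (k : Fin 5) : V := alpha k • e 0 + beta k • e 1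

lemma pt0 (e : Fin 2 → V) : pt e 0 = 0 := by simp [pt, alpha, beta]
lemma pt1 (e : Fin 2 → V) : pt e 1 = e 0 := by simp [pt, alpha, beta]
lemma pt2 (e : Fin 2 → V) : pt e 2 = - e 0 := by simp [pt, alpha, beta]
lemma pt3 (e : Fin 2 → V) : pt e 3 = e 1 := by simp [pt, alpha, beta]
lemma pt4 (e : Fin 2 → V) : pt e 4 = - e 1 := by simp [pt, alpha, beta]

lemma fin5_cases (k : Fin 5) : k = 0 ∨ k = 1 ∨ k = 2 ∨ k = 3 ∨ k = 4 := by
  revert k; decide

lemma fin2_cases (i : Fin 2) : i = 0 ∨ i = 1 := by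
  revert i; decide

/-- Weights (times 100) bounding the potentials from above. -/
def wt : Fin 5 → ℕ := ![150, 52, 50, 52, 50]

/-- Lower bounds (times 100) for inverse distances between regions. -/
def dinv : Fin 5 → Fin 5 → ℕ :=
  ![![10000, 99, 99, 99, 99],
    ![99, 10000, 49, 69, 69],
    ![99, 49, 10000, 69, 69],
    ![99, 69, 69, 10000, 49],
    ![99, 69, 69, 49, 10000]]

/-- Upper bounds for the distances between the base points. -/
noncomputable def dtab : Fin 5 → Fin 5 → ℝ :=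
  ![![0, 1, 1, 1, 1],
    ![1, 0, 2, 71 / 50, 71 / 50],
    ![1, 2, 0, 71 / 50, 71 / 50],
    ![1, 71 / 50, 71 / 50, 0, 2],
    ![1, 71 / 50, 71 / 50, 2, 0]]

lemma table_facts (j k : Fin 5) :
    (alpha j - alpha k) ^ 2 + (beta j - beta k) ^ 2 ≤ dtab j k ^ 2 ∧ 0 ≤ dtab j k ∧
      (dtab j k + 1 / 100) * ((dinv j k : ℝ) / 100) ≤ 1 ∧
      (j ≠ k → 1 ≤ (alpha j - alpha k) ^ 2 + (beta j - beta k) ^ 2) := by
  fin_cases j <;> fin_cases k <;> simp [alpha, beta, dtab, dinv] <;> norm_num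

lemma label_cases0 (k l : Fin 5) :
    (k = 1 ∧ l = 2) ∨ (k = 2 ∧ l = 1) ∨ (k = 3 ∧ l = 4) ∨ (k = 4 ∧ l = 3) ∨
      wt 0 + wt k + wt l < dinv 0 k + dinv 0 l + dinv k l := by
  revert k l; decide

lemma label_cases1 (j k l : Fin 5) (hj : j ≠ 0) (hk : k ≠ 0) (hl : l ≠ 0) :
    wt j + wt k + wt l < dinv j k + dinv j l + dinv k l := by
  revert j k l; decide

/-- The hypotheses on the orthonormal pair and on the sheets. -/
structure Data (e : Fin 2 → V) (b c gb : Fin 2 → V → V) : Prop where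
  unit : ∀ i, ‖e i‖ = 1
  orth : ⟪e 0, e 1⟫ = 0
  sheet : ∀ i a, ‖a‖ ≤ 1 / 10000000 → IsSheetPt (e i) a (b i a) (c i a)
  left : ∀ i a, ‖a‖ ≤ 1 / 10000000 → gb i (b i a) = a

/-- The family of potentials on the regions. -/
noncomputable def pot (e : Fin 2 → V) (b c gb : Fin 2 → V → V) : Fin 5 → V → ℝ :=
  ![uA, fun x => Vb (e 0) (b 0) (c 0) (gb 0 x), uC (e 0),
    fun x => Vb (e 1) (b 1) (c 1) (gb 1 x), uC (e 1)]

/-- The global potential. -/
noncomputable def bigU (e : Fin 2 → V) (b c gb : Fin 2 → V → V) (x : V) : ℝ :=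
  ∑ k, (closedBall (pt e k) (1 / 200)).indicator (pot e b c gb k) x

/-- The central ball. -/
def ballA : Set V := closedBall (0 : V) (1 / 10000000)

/-- The five pieces of the support. -/
def Slab (b c : Fin 2 → V → V) : Fin 5 → Set V :=
  ![ballA, b 0 '' ballA, c 0 '' ballA, b 1 '' ballA, c 1 '' ballA]

section

variable {e : Fin 2 → V} {b c gb : Fin 2 → V → V}

lemma mem_ballA {a : V} : a ∈ (ballA : Set V) ↔ ‖a‖ ≤ 1 / 10000000 := by
  rw [ballA, mem_closedBall_zero_iff]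

lemma pt_diff (e : Fin 2 → V) (j k : Fin 5) :
    pt e j - pt e k = (alpha j - alpha k) • e 0 + (beta j - beta k) • e 1 := by
  unfold pt
  rw [sub_smul, sub_smul]
  abel

lemma norm_pt_sq (hD : Data e b c gb) (j k : Fin 5) :
    ‖pt e j - pt e k‖ ^ 2 = (alpha j - alpha k) ^ 2 + (beta j - beta k) ^ 2 := by
  rw [pt_diff, norm_add_sq_real, norm_smul, norm_smul, inner_smul_left, inner_smul_right,
    hD.orth, hD.unit 0, hD.unit 1]
  simp

lemma pt_far (hD : Data e b c gb) {j k : Fin 5} (hjk : j ≠ k) : 1 ≤ ‖pt e j - pt e k‖ := by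
  have h1 := (table_facts j k).2.2.2 hjk
  rw [← norm_pt_sq hD] at h1
  by_contra hcon
  have hcon' : ‖pt e j - pt e k‖ < 1 := not_le.mp hcon
  have h0 := norm_nonneg (pt e j - pt e k)
  nlinarith

lemma pt_near (hD : Data e b c gb) (j k : Fin 5) : ‖pt e j - pt e k‖ ≤ dtab j k := by
  obtain ⟨h1, h2, -, -⟩ := table_facts j k
  rw [← norm_pt_sq hD] at h1
  exact (sq_le_sq₀ (norm_nonneg _) h2).mp h1

lemma region_unique (hD : Data e b c gb) {x : V} {j k : Fin 5}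
    (hj : ‖x - pt e j‖ ≤ 1 / 200) (hk : ‖x - pt e k‖ ≤ 1 / 200) : j = k := by
  by_contra hjk
  have h1 := pt_far hD hjk
  have h2 : pt e j - pt e k = (x - pt e k) - (x - pt e j) := by abel
  rw [h2] at h1
  have h3 := norm_sub_le (x - pt e k) (x - pt e j)
  linarith

lemma bigU_eq (hD : Data e b c gb) {x : V} {k : Fin 5} (hx : ‖x - pt e k‖ ≤ 1 / 200) :
    bigU e b c gb x = pot e b c gb k x := by
  unfold bigU
  rw [Finset.sum_eq_single k]
  · rw [Set.indicator_of_mem]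
    rw [mem_closedBall_iff_norm]; exact hx
  · intro j _ hj
    rw [Set.indicator_of_notMem]
    rw [mem_closedBall_iff_norm]
    intro h
    exact hj (region_unique hD h hx)
  · intro h; exact absurd (Finset.mem_univ k) h

lemma bigU_a (hD : Data e b c gb) {x : V} (hx : ‖x‖ ≤ 1 / 200) : bigU e b c gb x = uA x := by
  have h : ‖x - pt e 0‖ ≤ 1 / 200 := by rwa [pt0, sub_zero]
  rw [bigU_eq hD h]
  rfl

lemma near_of_sheet_b (hD : Data e b c gb) (i : Fin 2) {a : V} (ha : ‖a‖ ≤ 1 / 10000000) :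
    ‖b i a - e i‖ ≤ 1 / 200 :=
  ((hD.sheet i a ha).2.1).trans (by norm_num)

lemma near_of_sheet_c (hD : Data e b c gb) (i : Fin 2) {a : V} (ha : ‖a‖ ≤ 1 / 10000000) :
    ‖c i a + e i‖ ≤ 1 / 200 :=
  ((hD.sheet i a ha).2.2.1).trans (by norm_num)

lemma bigU_b (hD : Data e b c gb) (i : Fin 2) {a : V} (ha : ‖a‖ ≤ 1 / 10000000) :
    bigU e b c gb (b i a) = Vb (e i) (b i) (c i) a := by
  have h := near_of_sheet_b hD i ha
  obtain rfl | rfl := fin2_cases i
  · rw [← pt1 e] at h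
    rw [bigU_eq hD h]
    change Vb (e 0) (b 0) (c 0) (gb 0 (b 0 a)) = _
    rw [hD.left 0 a ha]
  · rw [← pt3 e] at h
    rw [bigU_eq hD h]
    change Vb (e 1) (b 1) (c 1) (gb 1 (b 1 a)) = _
    rw [hD.left 1 a ha]

lemma bigU_c (hD : Data e b c gb) (i : Fin 2) {z : V} (hz : ‖z + e i‖ ≤ 1 / 200) :
    bigU e b c gb z = uC (e i) z := by
  obtain rfl | rfl := fin2_cases i
  · have h : ‖z - pt e 2‖ ≤ 1 / 200 := by rwa [pt2, sub_neg_eq_add]
    rw [bigU_eq hD h]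
    rfl
  · have h : ‖z - pt e 4‖ ≤ 1 / 200 := by rwa [pt4, sub_neg_eq_add]
    rw [bigU_eq hD h]
    rfl

lemma slab_cases {k : Fin 5} {x : V} (hx : x ∈ Slab b c k) :
    (k = 0 ∧ x ∈ (ballA : Set V)) ∨ (∃ i : Fin 2, x ∈ b i '' ballA ∧ (k = 1 ∨ k = 3)) ∨
      (∃ i : Fin 2, x ∈ c i '' ballA ∧ (k = 2 ∨ k = 4)) := by
  obtain rfl | rfl | rfl | rfl | rfl := fin5_cases k
  · left; exact ⟨rfl, hx⟩
  · right; left; exact ⟨0, hx, Or.inl rfl⟩
  · right; right; exact ⟨0, hx, Or.inl rfl⟩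
  · right; left; exact ⟨1, hx, Or.inr rfl⟩
  · right; right; exact ⟨1, hx, Or.inr rfl⟩

lemma slab_near (hD : Data e b c gb) {k : Fin 5} {x : V} (hx : x ∈ Slab b c k) :
    ‖x - pt e k‖ ≤ 1 / 200 := by
  obtain rfl | rfl | rfl | rfl | rfl := fin5_cases k
  · rw [pt0, sub_zero]
    have h : ‖x‖ ≤ 1 / 10000000 := mem_ballA.mp hx
    exact h.trans (by norm_num)
  · obtain ⟨a, ha, rfl⟩ := hx
    rw [pt1]; exact near_of_sheet_b hD 0 (mem_ballA.mp ha)
  · obtain ⟨a, ha, rfl⟩ := hx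
    rw [pt2, sub_neg_eq_add]; exact near_of_sheet_c hD 0 (mem_ballA.mp ha)
  · obtain ⟨a, ha, rfl⟩ := hx
    rw [pt3]; exact near_of_sheet_b hD 1 (mem_ballA.mp ha)
  · obtain ⟨a, ha, rfl⟩ := hx
    rw [pt4, sub_neg_eq_add]; exact near_of_sheet_c hD 1 (mem_ballA.mp ha)

lemma slab_bounds (hD : Data e b c gb) {k : Fin 5} {x : V} (hx : x ∈ Slab b c k) :
    0 ≤ bigU e b c gb x ∧ bigU e b c gb x ≤ (wt k : ℝ) / 100 := by
  obtain rfl | rfl | rfl | rfl | rfl := fin5_cases k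
  · have h : ‖x‖ ≤ 1 / 10000000 := mem_ballA.mp hx
    rw [bigU_a hD (h.trans (by norm_num))]
    obtain ⟨h1, h2⟩ := uA_bounds h
    refine ⟨h1, h2.trans ?_⟩
    have hw : wt 0 = 150 := rfl
    rw [hw]; norm_num
  · obtain ⟨a, ha, rfl⟩ := hx
    have ha' := mem_ballA.mp ha
    rw [bigU_b hD 0 ha']
    obtain ⟨h1, h2⟩ := sheet_cost_bounds (hD.unit 0) (hD.sheet 0 a ha')
    refine ⟨h1, h2.trans ?_⟩
    have hw : wt 1 = 52 := rfl
    rw [hw]; norm_num
  · obtain ⟨a, ha, rfl⟩ := hx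
    have ha' := mem_ballA.mp ha
    have hs := (hD.sheet 0 a ha').2.2.1
    rw [bigU_c hD 0 (hs.trans (by norm_num))]
    obtain ⟨h1, h2⟩ := uC_bounds hs
    refine ⟨h1, h2.trans ?_⟩
    have hw : wt 2 = 50 := rfl
    rw [hw]; norm_num
  · obtain ⟨a, ha, rfl⟩ := hx
    have ha' := mem_ballA.mp ha
    rw [bigU_b hD 1 ha']
    obtain ⟨h1, h2⟩ := sheet_cost_bounds (hD.unit 1) (hD.sheet 1 a ha')
    refine ⟨h1, h2.trans ?_⟩
    have hw : wt 3 = 52 := rfl
    rw [hw]; norm_num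
  · obtain ⟨a, ha, rfl⟩ := hx
    have ha' := mem_ballA.mp ha
    have hs := (hD.sheet 1 a ha').2.2.1
    rw [bigU_c hD 1 (hs.trans (by norm_num))]
    obtain ⟨h1, h2⟩ := uC_bounds hs
    refine ⟨h1, h2.trans ?_⟩
    have hw : wt 4 = 50 := rfl
    rw [hw]; norm_num

lemma slab_inv (hD : Data e b c gb) {j k : Fin 5} {x y : V} (hx : x ∈ Slab b c j)
    (hy : y ∈ Slab b c k) (hxy : x ≠ y) : (dinv j k : ℝ) / 100 ≤ ‖x - y‖⁻¹ := by
  have h1 := slab_near hD hx
  have h2 := slab_near hD hy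
  have h3 := pt_near hD j k
  obtain ⟨-, h5, h6, -⟩ := table_facts j k
  have hd : 0 < ‖x - y‖ := norm_pos_iff.mpr (sub_ne_zero.mpr hxy)
  have h7 : ‖x - y‖ ≤ dtab j k + 1 / 100 := by
    have e1 : x - y = (x - pt e j) + (pt e j - pt e k) - (y - pt e k) := by abel
    rw [e1]
    refine (norm_sub_le _ _).trans ?_
    have := norm_add_le (x - pt e j) (pt e j - pt e k)
    linarith
  have ht : 0 ≤ (dinv j k : ℝ) / 100 := by positivity
  have h8 : (dinv j k : ℝ) / 100 * ‖x - y‖ ≤ 1 :=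
    calc (dinv j k : ℝ) / 100 * ‖x - y‖ ≤ (dinv j k : ℝ) / 100 * (dtab j k + 1 / 100) :=
          mul_le_mul_of_nonneg_left h7 ht
      _ = (dtab j k + 1 / 100) * ((dinv j k : ℝ) / 100) := by ring
      _ ≤ 1 := h6
  rw [← one_div, le_div_iff₀ hd]
  exact h8

/-- Strict inequality away from the tight configurations. -/
lemma strict_of (hD : Data e b c gb) {j k l : Fin 5} {x y z : V} (hx : x ∈ Slab b c j)
    (hy : y ∈ Slab b c k) (hz : z ∈ Slab b c l) (hxy : x ≠ y) (hxz : x ≠ z) (hyz : y ≠ z)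
    (h : wt j + wt k + wt l < dinv j k + dinv j l + dinv k l) :
    bigU e b c gb x + bigU e b c gb y + bigU e b c gb z < cost x y z := by
  have h1 := (slab_bounds hD hx).2
  have h2 := (slab_bounds hD hy).2
  have h3 := (slab_bounds hD hz).2
  have h4 := slab_inv hD hx hy hxy
  have h5 := slab_inv hD hx hz hxz
  have h6 := slab_inv hD hy hz hyz
  have h7 : (wt j : ℝ) + wt k + wt l < (dinv j k : ℝ) + dinv j l + dinv k l := by
    exact_mod_cast h
  unfold cost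
  linarith

lemma tight_U (hD : Data e b c gb) (i : Fin 2) {x a z : V} (ha : ‖a‖ ≤ 1 / 10000000)
    (hx : ‖x‖ ≤ 1 / 200) (hz : ‖z + e i‖ ≤ 1 / 200)
    (hxb : x ≠ b i a) (hxz : x ≠ z) (hbz : b i a ≠ z) :
    bigU e b c gb x + bigU e b c gb (b i a) + bigU e b c gb z
        + 4988 * (‖x - a‖ ^ 2 + ‖z - c i a‖ ^ 2) ≤ cost x (b i a) z := by
  rw [bigU_a hD hx, bigU_b hD i ha, bigU_c hD i hz]
  exact tight_pot (hD.unit i) (hD.sheet i a ha) hxb hxz hbz

lemma case_tight (hD : Data e b c gb) (i : Fin 2) {x y z : V} (hx : x ∈ (ballA : Set V))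
    (hy : y ∈ b i '' ballA) (hz : z ∈ c i '' ballA) (hxy : x ≠ y) (hxz : x ≠ z) (hyz : y ≠ z) :
    bigU e b c gb x + bigU e b c gb y + bigU e b c gb z ≤ cost x y z ∧
      (cost x y z ≤ bigU e b c gb x + bigU e b c gb y + bigU e b c gb z →
        y = b i x ∧ z = c i x) := by
  obtain ⟨a, ha, rfl⟩ := hy
  obtain ⟨a', ha', rfl⟩ := hz
  have hx' : ‖x‖ ≤ 1 / 10000000 := mem_ballA.mp hx
  have ha1 : ‖a‖ ≤ 1 / 10000000 := mem_ballA.mp ha
  have ha2 : ‖a'‖ ≤ 1 / 10000000 := mem_ballA.mp ha'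
  have key := tight_U hD i ha1 (hx'.trans (by norm_num)) (near_of_sheet_c hD i ha2) hxy hxz hyz
  have n1 : 0 ≤ ‖x - a‖ ^ 2 := by positivity
  have n2 : 0 ≤ ‖c i a' - c i a‖ ^ 2 := by positivity
  refine ⟨by linarith, ?_⟩
  intro hle
  have z1 : ‖x - a‖ ^ 2 = 0 := by linarith
  have z2 : ‖c i a' - c i a‖ ^ 2 = 0 := by linarith
  have e1 : x = a := by
    have := pow_eq_zero_iff (two_ne_zero) |>.mp z1
    exact sub_eq_zero.mp (norm_eq_zero.mp this)
  have e2 : c i a' = c i a := by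
    have := pow_eq_zero_iff (two_ne_zero) |>.mp z2
    exact sub_eq_zero.mp (norm_eq_zero.mp this)
  subst e1
  exact ⟨rfl, e2⟩

lemma case_tight_ordered (hD : Data e b c gb) (i : Fin 2) {x y z : V} (hx : x ∈ (ballA : Set V))
    (hy : y ∈ c i '' ballA) (hz : z ∈ b i '' ballA) (hxy : x ≠ y) (hxz : x ≠ z) (hyz : y ≠ z) :
    bigU e b c gb x + bigU e b c gb y + bigU e b c gb z ≤ cost x y z ∧
      (cost x y z ≤ bigU e b c gb x + bigU e b c gb y + bigU e b c gb z →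
        y = c i x ∧ z = b i x) := by
  obtain ⟨h1, h2⟩ := case_tight hD i hx hz hy hxz hxy hyz.symm
  rw [cost_swap23] at h1 h2
  refine ⟨by linarith, ?_⟩
  intro h
  obtain ⟨h3, h4⟩ := h2 (by linarith)
  exact ⟨h4, h3⟩

/-- The inequality and the contact structure at a point of the central ball. -/
lemma main0 (hD : Data e b c gb) {k l : Fin 5} {x y z : V} (hx : x ∈ (ballA : Set V))
    (hy : y ∈ Slab b c k) (hz : z ∈ Slab b c l) (hxy : x ≠ y) (hxz : x ≠ z) (hyz : y ≠ z) :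
    bigU e b c gb x + bigU e b c gb y + bigU e b c gb z ≤ cost x y z ∧
      (cost x y z ≤ bigU e b c gb x + bigU e b c gb y + bigU e b c gb z →
        ∃ i, (y = b i x ∧ z = c i x) ∨ (y = c i x ∧ z = b i x)) := by
  obtain ⟨rfl, rfl⟩ | ⟨rfl, rfl⟩ | ⟨rfl, rfl⟩ | ⟨rfl, rfl⟩ | h := label_cases0 k l
  · obtain ⟨h1, h2⟩ := case_tight hD 0 hx hy hz hxy hxz hyz
    exact ⟨h1, fun h => ⟨0, Or.inl (h2 h)⟩⟩
  · obtain ⟨h1, h2⟩ := case_tight_ordered hD 0 hx hy hz hxy hxz hyz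
    exact ⟨h1, fun h => ⟨0, Or.inr (h2 h)⟩⟩
  · obtain ⟨h1, h2⟩ := case_tight hD 1 hx hy hz hxy hxz hyz
    exact ⟨h1, fun h => ⟨1, Or.inl (h2 h)⟩⟩
  · obtain ⟨h1, h2⟩ := case_tight_ordered hD 1 hx hy hz hxy hxz hyz
    exact ⟨h1, fun h => ⟨1, Or.inr (h2 h)⟩⟩
  · have hx0 : x ∈ Slab b c 0 := hx
    have hs := strict_of hD hx0 hy hz hxy hxz hyz h
    exact ⟨hs.le, fun h' => absurd h' (not_le.mpr hs)⟩

/-- The inequality at three pairwise distinct points of the support. -/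
lemma main_ineq (hD : Data e b c gb) {j k l : Fin 5} {x y z : V} (hx : x ∈ Slab b c j)
    (hy : y ∈ Slab b c k) (hz : z ∈ Slab b c l) (hxy : x ≠ y) (hxz : x ≠ z) (hyz : y ≠ z) :
    bigU e b c gb x + bigU e b c gb y + bigU e b c gb z ≤ cost x y z := by
  by_cases hj : j = 0
  · subst hj
    exact (main0 hD hx hy hz hxy hxz hyz).1
  by_cases hk : k = 0
  · subst hk
    have := (main0 hD hy hx hz hxy.symm hyz hxz).1
    rw [cost_swap12] at this
    linarith
  by_cases hl : l = 0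
  · subst hl
    have := (main0 hD hz hx hy hxz.symm hyz.symm hxy).1
    rw [cost_swap12, cost_swap23] at this
    linarith
  exact (strict_of hD hx hy hz hxy hxz hyz (label_cases1 j k l hj hk hl)).le

lemma sheet_sum (hD : Data e b c gb) (i : Fin 2) {a : V} (ha : ‖a‖ ≤ 1 / 10000000) :
    bigU e b c gb a + bigU e b c gb (b i a) + bigU e b c gb (c i a) = cost a (b i a) (c i a) := by
  rw [bigU_a hD (ha.trans (by norm_num)), bigU_b hD i ha, bigU_c hD i (near_of_sheet_c hD i ha)]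
  unfold Vb
  ring

lemma sheet_distinct (hD : Data e b c gb) (i : Fin 2) {a : V} (ha : ‖a‖ ≤ 1 / 10000000) :
    a ≠ b i a ∧ a ≠ c i a ∧ b i a ≠ c i a := by
  obtain ⟨⟨n1, -⟩, ⟨n2, -⟩, ⟨n3, -⟩⟩ := (hD.sheet i a ha).norms (hD.unit i)
  refine ⟨?_, ?_, ?_⟩
  · intro h
    rw [← h, sub_self, norm_zero] at n1
    norm_num at n1
  · intro h
    rw [← h, sub_self, norm_zero] at n2
    norm_num at n2
  · intro h
    rw [← h, sub_self, norm_zero] at n3
    norm_num at n3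

section measurability

variable [MeasurableSpace V] [BorelSpace V] [SecondCountableTopology V]

lemma measurable_cost {X : Type*} [MeasurableSpace X] {f g h : X → V} (hf : Measurable f)
    (hg : Measurable g) (hh : Measurable h) :
    Measurable (fun a => cost (f a) (g a) (h a)) := by
  unfold cost
  exact (((hf.sub hg).norm.inv).add ((hf.sub hh).norm.inv)).add ((hg.sub hh).norm.inv)

omit [SecondCountableTopology V] in
lemma measurable_uA : Measurable (uA : V → ℝ) := by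
  unfold uA
  exact (continuous_const.sub (continuous_const.mul (continuous_norm.pow 2))).measurable

omit [SecondCountableTopology V] in
lemma measurable_uC (v : V) : Measurable (uC v : V → ℝ) := by
  unfold uC
  exact (continuous_const.sub (continuous_const.mul
    (((continuous_id.add continuous_const).norm).pow 2))).measurable

lemma measurable_Vb (v : V) {b c : V → V} (hb : Measurable b) (hc : Measurable c) :
    Measurable (Vb v b c) := by
  unfold Vb
  exact ((measurable_cost measurable_id hb hc).sub measurable_uA).sub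
    ((measurable_uC v).comp hc)

lemma measurable_bigU (hb : ∀ i, Measurable (b i)) (hc : ∀ i, Measurable (c i))
    (hgb : ∀ i, Measurable (gb i)) : Measurable (bigU e b c gb) := by
  have hp : ∀ k, Measurable (pot e b c gb k) := by
    intro k
    obtain rfl | rfl | rfl | rfl | rfl := fin5_cases k
    · exact measurable_uA
    · exact (measurable_Vb _ (hb 0) (hc 0)).comp (hgb 0)
    · exact measurable_uC _
    · exact (measurable_Vb _ (hb 1) (hc 1)).comp (hgb 1)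
    · exact measurable_uC _
  unfold bigU
  exact Finset.measurable_sum _ (fun k _ => (hp k).indicator measurableSet_closedBall)

end measurability

end

end Vale.Agent.P121
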