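import Vale.Agent.P121.Abstract
import Vale.Agent.P121.Potential

open scoped ENNReal RealInnerProductSpace
open MeasureTheory Metric

namespace Vale.Agent.P121

lemma coulomb_eq_ofReal {x y z : R3} (hxy : x ≠ y) (hxz : x ≠ z) (hyz : y ≠ z) :
    coulomb x y z = ENNReal.ofReal (cost x y z) := by
  have h : ∀ {u w : R3}, u ≠ w → (edist u w)⁻¹ = ENNReal.ofReal ‖u - w‖⁻¹ := by
    intro u w huw
    have hpos : 0 < ‖u - w‖ := norm_pos_iff.mpr (sub_ne_zero.mpr huw)
    rw [edist_dist, dist_eq_norm, ENNReal.ofReal_inv_of_pos hpos]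
  unfold coulomb cost
  rw [h hxy, h hxz, h hyz, ENNReal.ofReal_add (by positivity) (by positivity),
    ENNReal.ofReal_add (by positivity) (by positivity)]

lemma coulomb_top_xy (x z : R3) : coulomb x x z = ⊤ := by
  simp [coulomb]

lemma coulomb_top_xz (x y : R3) : coulomb x y x = ⊤ := by
  simp [coulomb]

lemma coulomb_top_yz (x y : R3) : coulomb x y y = ⊤ := by
  simp [coulomb]

lemma wt_le (k : Fin 5) : wt k ≤ 150 := by
  revert k; decide

/-- The four branches of the two sheets. -/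
noncomputable def sOf (b c : Fin 2 → R3 → R3) : Fin 4 → R3 → R3 := ![b 0, c 0, b 1, c 1]

lemma fin4_cases (j : Fin 4) : j = 0 ∨ j = 1 ∨ j = 2 ∨ j = 3 := by
  revert j; decide

/-- The potential with values in the extended reals. -/
noncomputable def ePot (e : Fin 2 → R3) (b c gb : Fin 2 → R3 → R3) (x : R3) : ℝ≥0∞ :=
  ENNReal.ofReal (bigU e b c gb x)

/-- The support. -/
def bigS (b c : Fin 2 → R3 → R3) : Set R3 := ⋃ k, Slab b c k

section

variable {e : Fin 2 → R3} {b c gb : Fin 2 → R3 → R3}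

lemma ePot_sum (hD : Data e b c gb) {x y z : R3} (hx : x ∈ bigS b c) (hy : y ∈ bigS b c)
    (hz : z ∈ bigS b c) :
    ePot e b c gb x + ePot e b c gb y + ePot e b c gb z
      = ENNReal.ofReal (bigU e b c gb x + bigU e b c gb y + bigU e b c gb z) := by
  obtain ⟨j, hj⟩ := Set.mem_iUnion.mp hx
  obtain ⟨k, hk⟩ := Set.mem_iUnion.mp hy
  obtain ⟨l, hl⟩ := Set.mem_iUnion.mp hz
  have h1 := (slab_bounds hD hj).1
  have h2 := (slab_bounds hD hk).1
  have h3 := (slab_bounds hD hl).1
  unfold ePot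
  rw [ENNReal.ofReal_add (by positivity) h3, ENNReal.ofReal_add h1 h2]

lemma ePot_le_two (hD : Data e b c gb) {x : R3} (hx : x ∈ bigS b c) : ePot e b c gb x ≤ 2 := by
  obtain ⟨k, hk⟩ := Set.mem_iUnion.mp hx
  have h1 := (slab_bounds hD hk).2
  have h2 : (wt k : ℝ) / 100 ≤ 2 := by
    have : wt k ≤ 150 := wt_le k
    have h3 : (wt k : ℝ) ≤ 150 := by exact_mod_cast this
    linarith
  unfold ePot
  have h3 := ENNReal.ofReal_le_ofReal (h1.trans h2)
  simpa using h3

lemma ePot_ineq (hD : Data e b c gb) {x y z : R3} (hx : x ∈ bigS b c) (hy : y ∈ bigS b c)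
    (hz : z ∈ bigS b c) :
    ePot e b c gb x + ePot e b c gb y + ePot e b c gb z ≤ coulomb x y z := by
  by_cases hxy : x = y
  · rw [hxy, coulomb_top_xy]; exact le_top
  by_cases hxz : x = z
  · rw [hxz, coulomb_top_xz]; exact le_top
  by_cases hyz : y = z
  · rw [hyz, coulomb_top_yz]; exact le_top
  rw [ePot_sum hD hx hy hz, coulomb_eq_ofReal hxy hxz hyz]
  obtain ⟨j, hj⟩ := Set.mem_iUnion.mp hx
  obtain ⟨k, hk⟩ := Set.mem_iUnion.mp hy
  obtain ⟨l, hl⟩ := Set.mem_iUnion.mp hz
  exact ENNReal.ofReal_le_ofReal (main_ineq hD hj hk hl hxy hxz hyz)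

lemma ballA_subset_bigS : (ballA : Set R3) ⊆ bigS b c :=
  fun _ ha => Set.mem_iUnion.mpr ⟨0, ha⟩

lemma b_mem_bigS (i : Fin 2) {a : R3} (ha : a ∈ (ballA : Set R3)) : b i a ∈ bigS b c := by
  obtain rfl | rfl := fin2_cases i
  · exact Set.mem_iUnion.mpr ⟨1, ⟨a, ha, rfl⟩⟩
  · exact Set.mem_iUnion.mpr ⟨3, ⟨a, ha, rfl⟩⟩

lemma c_mem_bigS (i : Fin 2) {a : R3} (ha : a ∈ (ballA : Set R3)) : c i a ∈ bigS b c := by
  obtain rfl | rfl := fin2_cases i
  · exact Set.mem_iUnion.mpr ⟨2, ⟨a, ha, rfl⟩⟩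
  · exact Set.mem_iUnion.mpr ⟨4, ⟨a, ha, rfl⟩⟩

lemma ePot_sheet (hD : Data e b c gb) (i : Fin 2) {a : R3} (ha : a ∈ (ballA : Set R3)) :
    coulomb a (b i a) (c i a) ≤ ePot e b c gb a + ePot e b c gb (b i a) + ePot e b c gb (c i a) := by
  have ha' := mem_ballA.mp ha
  obtain ⟨h1, h2, h3⟩ := sheet_distinct hD i ha'
  rw [ePot_sum hD (ballA_subset_bigS ha) (b_mem_bigS i ha) (c_mem_bigS i ha),
    coulomb_eq_ofReal h1 h2 h3, sheet_sum hD i ha']

lemma ePot_contact (hD : Data e b c gb) {a y z : R3} (ha : a ∈ (ballA : Set R3))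
    (hy : y ∈ bigS b c) (hz : z ∈ bigS b c)
    (h : coulomb a y z ≤ ePot e b c gb a + ePot e b c gb y + ePot e b c gb z) :
    ∃ j, y = sOf b c j a := by
  have hfin : ePot e b c gb a + ePot e b c gb y + ePot e b c gb z < ⊤ := by
    rw [ePot_sum hD (ballA_subset_bigS ha) hy hz]
    exact ENNReal.ofReal_lt_top
  have hay : a ≠ y := by
    intro hc
    rw [hc, coulomb_top_xy] at h
    rw [hc] at hfin
    exact absurd (lt_of_le_of_lt h hfin) (lt_irrefl _)
  have haz : a ≠ z := by
    intro hc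
    rw [hc, coulomb_top_xz] at h
    rw [hc] at hfin
    exact absurd (lt_of_le_of_lt h hfin) (lt_irrefl _)
  have hyz : y ≠ z := by
    intro hc
    rw [hc, coulomb_top_yz] at h
    rw [hc] at hfin
    exact absurd (lt_of_le_of_lt h hfin) (lt_irrefl _)
  obtain ⟨k, hk⟩ := Set.mem_iUnion.mp hy
  obtain ⟨l, hl⟩ := Set.mem_iUnion.mp hz
  rw [ePot_sum hD (ballA_subset_bigS ha) hy hz, coulomb_eq_ofReal hay haz hyz] at h
  have hnn : 0 ≤ bigU e b c gb a + bigU e b c gb y + bigU e b c gb z := by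
    have h0 : a ∈ Slab b c 0 := ha
    have h1 := (slab_bounds hD h0).1
    have h2 := (slab_bounds hD hk).1
    have h3 := (slab_bounds hD hl).1
    positivity
  have hle := (ENNReal.ofReal_le_ofReal_iff hnn).mp h
  obtain ⟨i, hi⟩ := (main0 hD ha hk hl hay haz hyz).2 hle
  obtain rfl | rfl := fin2_cases i
  · obtain ⟨h1, -⟩ | ⟨h1, -⟩ := hi
    · exact ⟨0, h1⟩
    · exact ⟨1, h1⟩
  · obtain ⟨h1, -⟩ | ⟨h1, -⟩ := hi
    · exact ⟨2, h1⟩
    · exact ⟨3, h1⟩

lemma measurableSet_bigS (hb : ∀ i, Continuous (b i)) (hc : ∀ i, Continuous (c i)) :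
    MeasurableSet (bigS b c) := by
  refine MeasurableSet.iUnion fun k => ?_
  have hcomp : IsCompact (ballA : Set R3) := isCompact_closedBall _ _
  obtain rfl | rfl | rfl | rfl | rfl := fin5_cases k
  · exact hcomp.measurableSet
  · exact (hcomp.image (hb 0)).measurableSet
  · exact (hcomp.image (hc 0)).measurableSet
  · exact (hcomp.image (hb 1)).measurableSet
  · exact (hcomp.image (hc 1)).measurableSet

end

/-- There is an absolutely continuous probability measure on `R3` with finite Kantorovich value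
and no optimal Monge plan. -/
theorem no_monge : ∃ μ : Measure R3, IsProbabilityMeasure μ ∧ μ ≪ volume ∧
    kantorovich μ < ⊤ ∧
    ¬ ∃ T₂ T₃ : R3 → R3, Measurable T₂ ∧ Measurable T₃ ∧ μ.map T₂ = μ ∧ μ.map T₃ = μ ∧
      ∫⁻ x, coulomb x (T₂ x) (T₃ x) ∂μ = kantorovich μ := by
  classical
  -- the orthonormal pair
  let e : Fin 2 → R3 := ![EuclideanSpace.single 0 1, EuclideanSpace.single 1 1]
  have hunit : ∀ i, ‖e i‖ = 1 := by
    intro i
    obtain rfl | rfl := fin2_cases i
    · simp [e]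
    · simp [e]
  have horth : ⟪e 0, e 1⟫ = 0 := by
    simp [e, EuclideanSpace.inner_single_left]
  -- the sheets
  have hex := fun i => exists_sheet (e i) (hunit i)
  choose b c gb gc L1 L2 L3 L4 hb hc hgb hgc hsp using hex
  have hD : Data e b c gb :=
    ⟨hunit, horth, fun i a ha => (hsp i a ha).1, fun i a ha => (hsp i a ha).2.1⟩
  have hgcl : ∀ i a, a ∈ (ballA : Set R3) → gc i (c i a) = a :=
    fun i a ha => (hsp i a (mem_ballA.mp ha)).2.2
  have hgbl : ∀ i a, a ∈ (ballA : Set R3) → gb i (b i a) = a :=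
    fun i a ha => (hsp i a (mem_ballA.mp ha)).2.1
  -- the base measure
  have hA0 : MeasurableSet (ballA : Set R3) := measurableSet_closedBall
  have hvol0 : volume (ballA : Set R3) ≠ 0 :=
    (measure_closedBall_pos volume 0 (by norm_num)).ne'
  have hvol1 : volume (ballA : Set R3) ≠ ⊤ := measure_closedBall_lt_top.ne
  let lam : Measure R3 := ProbabilityTheory.cond volume ballA
  have hprob : IsProbabilityMeasure lam :=
    ProbabilityTheory.cond_isProbabilityMeasure_of_finite hvol0 hvol1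
  have hlam : lam (ballA : Set R3)ᶜ = 0 := by
    have := ProbabilityTheory.cond_apply hA0 (volume : Measure R3) ((ballA : Set R3)ᶜ)
    change ProbabilityTheory.cond volume ballA _ = 0
    rw [this, Set.inter_compl_self, measure_empty, mul_zero]
  have hlam_ac : lam ≪ volume := ProbabilityTheory.cond_absolutelyContinuous
  -- the branches
  let s : Fin 4 → R3 → R3 := sOf b c
  let g : Fin 4 → R3 → R3 := ![gb 0, gc 0, gb 1, gc 1]
  have hs : ∀ j, Measurable (s j) := by
    intro j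
    obtain rfl | rfl | rfl | rfl := fin4_cases j
    · exact (hb 0).continuous.measurable
    · exact (hc 0).continuous.measurable
    · exact (hb 1).continuous.measurable
    · exact (hc 1).continuous.measurable
  have hgL : ∀ j, ∃ L, LipschitzWith L (g j) := by
    intro j
    obtain rfl | rfl | rfl | rfl := fin4_cases j
    · exact ⟨_, hgb 0⟩
    · exact ⟨_, hgc 0⟩
    · exact ⟨_, hgb 1⟩
    · exact ⟨_, hgc 1⟩
  have hg : ∀ j, Measurable (g j) := by
    intro j
    obtain ⟨L, hL⟩ := hgL j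
    exact hL.continuous.measurable
  have hgs : ∀ j, ∀ a ∈ (ballA : Set R3), g j (s j a) = a := by
    intro j a ha
    obtain rfl | rfl | rfl | rfl := fin4_cases j
    · exact hgbl 0 a ha
    · exact hgcl 0 a ha
    · exact hgbl 1 a ha
    · exact hgcl 1 a ha
  have hslab : ∀ j, ∀ a ∈ (ballA : Set R3), s j a ∈ Slab b c j.succ := by
    intro j a ha
    obtain rfl | rfl | rfl | rfl := fin4_cases j
    · exact ⟨a, ha, rfl⟩
    · exact ⟨a, ha, rfl⟩
    · exact ⟨a, ha, rfl⟩
    · exact ⟨a, ha, rfl⟩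
  let R : Fin 4 → Set R3 := fun j => closedBall (pt e j.succ) (1 / 200)
  have hsR : ∀ j, ∀ a ∈ (ballA : Set R3), s j a ∈ R j := by
    intro j a ha
    exact mem_closedBall_iff_norm.mpr (slab_near hD (hslab j a ha))
  have hRA : ∀ j, Disjoint (R j) (ballA : Set R3) := by
    intro j
    refine Set.disjoint_left.mpr ?_
    intro x hx hxA
    have h1 : ‖x - pt e j.succ‖ ≤ 1 / 200 := mem_closedBall_iff_norm.mp hx
    have hxA' : x ∈ Slab b c 0 := hxA
    have h2 := slab_near hD hxA'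
    exact Fin.succ_ne_zero j (region_unique hD h1 h2)
  have hRR : ∀ j k, j ≠ k → Disjoint (R j) (R k) := by
    intro j k hjk
    refine Set.disjoint_left.mpr ?_
    intro x hx hx'
    have h1 : ‖x - pt e j.succ‖ ≤ 1 / 200 := mem_closedBall_iff_norm.mp hx
    have h2 : ‖x - pt e k.succ‖ ≤ 1 / 200 := mem_closedBall_iff_norm.mp hx'
    exact hjk (Fin.succ_injective _ (region_unique hD h1 h2))
  have hsS : ∀ j, ∀ a ∈ (ballA : Set R3), s j a ∈ bigS b c := by
    intro j a ha
    exact Set.mem_iUnion.mpr ⟨_, hslab j a ha⟩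
  have hU : Measurable (ePot e b c gb) :=
    ENNReal.measurable_ofReal.comp (measurable_bigU (fun i => (hb i).continuous.measurable)
      (fun i => (hc i).continuous.measurable) (fun i => (hgb i).continuous.measurable))
  have hmain := abstract_main lam s ballA (bigS b c) hA0
    (measurableSet_bigS (fun i => (hb i).continuous) (fun i => (hc i).continuous)) hlam g hs hg R
    (fun _ => measurableSet_closedBall) hsR hRA hRR hgs ballA_subset_bigS hsS (ePot e b c gb) hU
    (fun x hx => ePot_le_two hD hx)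
    (fun x hx y hy z hz => ePot_ineq hD hx hy hz)
    (fun a ha => ePot_sheet hD 0 ha) (fun a ha => ePot_sheet hD 1 ha)
    (fun a ha y hy z hz h => ePot_contact hD ha hy hz h)
  have hac : muOf lam s ≪ volume := by
    refine muOf_ac lam hlam_ac s ?_
    intro k
    obtain ⟨L, hL⟩ := hgL k
    exact map_ac lam hlam_ac ballA hlam (hs k) hL (hgs k)
  exact ⟨muOf lam s, hmain.1, hac, hmain.2.1, hmain.2.2⟩

end Vale.Agent.P121
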