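import Vale.Agent.P121.Basic

open scoped RealInnerProductSpace NNReal
open Metric

namespace Vale.Agent.P121

variable {V : Type*} [NormedAddCommGroup V] [InnerProductSpace ℝ V]

/-- A point of the contact sheet attached to the unit vector `v`. -/
def IsSheetPt (v a b c : V) : Prop :=
  ‖a‖ ≤ 1 / 10000000 ∧ ‖b - v‖ ≤ 1 / 250 ∧ ‖c + v‖ ≤ 1 / 5000 ∧
    G (a - b) + G (a - c) = (10000 : ℝ) • a ∧
    G (a - c) + G (b - c) = -((10000 : ℝ) • (c + v))

lemma norm_bounds_of_close {x u : V} {e : ℝ} (h : ‖x - u‖ ≤ e) :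
    ‖u‖ - e ≤ ‖x‖ ∧ ‖x‖ ≤ ‖u‖ + e := by
  have h1 : ‖x‖ ≤ ‖x - u‖ + ‖u‖ := norm_le_norm_sub_add x u
  have h2 : ‖u‖ ≤ ‖u - x‖ + ‖x‖ := norm_le_norm_sub_add u x
  rw [norm_sub_rev] at h2
  constructor <;> linarith

/-- Basic estimates at a sheet point. -/
lemma IsSheetPt.close {v a b c : V} (h : IsSheetPt v a b c) :
    ‖(a - b) - (-v)‖ ≤ 1 / 200 ∧ ‖(a - c) - v‖ ≤ 1 / 200 ∧ ‖(b - c) - (2 : ℝ) • v‖ ≤ 1 / 200 := by
  obtain ⟨ha, hb, hc, -, -⟩ := h
  refine ⟨?_, ?_, ?_⟩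
  · have : (a - b) - (-v) = a - (b - v) := by abel
    rw [this]
    refine (norm_sub_le _ _).trans ?_
    linarith
  · have : (a - c) - v = a - (c + v) := by abel
    rw [this]
    refine (norm_sub_le _ _).trans ?_
    linarith
  · have : (b - c) - (2 : ℝ) • v = (b - v) - (c + v) := by
      rw [two_smul]; abel
    rw [this]
    refine (norm_sub_le _ _).trans ?_
    linarith

lemma IsSheetPt.norms {v a b c : V} (hv : ‖v‖ = 1) (h : IsSheetPt v a b c) :
    (199 / 200 ≤ ‖a - b‖ ∧ ‖a - b‖ ≤ 201 / 200) ∧ (199 / 200 ≤ ‖a - c‖ ∧ ‖a - c‖ ≤ 201 / 200) ∧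
      (399 / 200 ≤ ‖b - c‖ ∧ ‖b - c‖ ≤ 401 / 200) := by
  obtain ⟨h1, h2, h3⟩ := h.close
  have n1 := norm_bounds_of_close h1
  have n2 := norm_bounds_of_close h2
  have n3 := norm_bounds_of_close h3
  rw [norm_neg, hv] at n1
  rw [hv] at n2
  have : ‖(2 : ℝ) • v‖ = 2 := by rw [norm_smul, hv]; norm_num
  rw [this] at n3
  refine ⟨⟨?_, ?_⟩, ⟨?_, ?_⟩, ⟨?_, ?_⟩⟩ <;> linarith [n1.1, n1.2, n2.1, n2.2, n3.1, n3.2]

/-- The constant in the upper estimate, in a convenient form. -/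
lemma G_lip_three (x y : V) (hx : 9 / 10 ≤ ‖x‖) (hy : 9 / 10 ≤ ‖y‖) :
    ‖G x - G y‖ ≤ 3 * ‖x - y‖ := by
  have := G_lip_upper x y (m := 9 / 10) (by norm_num) hx hy
  refine this.trans ?_
  have h : (2 : ℝ) / (9 / 10) ^ 3 ≤ 3 := by norm_num
  exact mul_le_mul_of_nonneg_right h (norm_nonneg _)

lemma G_lip_one (x y : V) (hx : 3 / 2 ≤ ‖x‖) (hy : 3 / 2 ≤ ‖y‖) :
    ‖G x - G y‖ ≤ 1 * ‖x - y‖ := by
  have := G_lip_upper x y (m := 3 / 2) (by norm_num) hx hy
  refine this.trans ?_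
  have h : (2 : ℝ) / (3 / 2) ^ 3 ≤ 1 := by norm_num
  exact mul_le_mul_of_nonneg_right h (norm_nonneg _)

lemma ne_zero_of_le_norm {x : V} {m : ℝ} (hm : 0 < m) (h : m ≤ ‖x‖) : x ≠ 0 :=
  norm_pos_iff.mp (lt_of_lt_of_le hm h)

lemma G_low_two (x y : V) (hx : 1 / 2 ≤ ‖x‖) (hy : 1 / 2 ≤ ‖y‖)
    (hx' : ‖x‖ ≤ 11 / 10) (hy' : ‖y‖ ≤ 11 / 10) :
    ‖x - y‖ ≤ 2 * ‖G x - G y‖ := by
  have := G_lip_lower x y (M := 11 / 10) (by norm_num)
    (ne_zero_of_le_norm (by norm_num) hx) (ne_zero_of_le_norm (by norm_num) hy) hx' hy'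
  refine this.trans ?_
  have h : ((11 : ℝ) / 10) ^ 3 ≤ 2 := by norm_num
  exact mul_le_mul_of_nonneg_right h (norm_nonneg _)

lemma G_low_nine (x y : V) (hx : 1 / 2 ≤ ‖x‖) (hy : 1 / 2 ≤ ‖y‖)
    (hx' : ‖x‖ ≤ 41 / 20) (hy' : ‖y‖ ≤ 41 / 20) :
    ‖x - y‖ ≤ 9 * ‖G x - G y‖ := by
  have := G_lip_lower x y (M := 41 / 20) (by norm_num)
    (ne_zero_of_le_norm (by norm_num) hx) (ne_zero_of_le_norm (by norm_num) hy) hx' hy'
  refine this.trans ?_
  have h : ((41 : ℝ) / 20) ^ 3 ≤ 9 := by norm_num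
  exact mul_le_mul_of_nonneg_right h (norm_nonneg _)

/-- The comparison of two sheet points for the same unit vector. -/
lemma sheet_two_pt {v a b c a' b' c' : V} (hv : ‖v‖ = 1)
    (h : IsSheetPt v a b c) (h' : IsSheetPt v a' b' c') :
    ‖a - a'‖ ≤ ‖b - b'‖ ∧ ‖a - a'‖ ≤ 30 * ‖c - c'‖ ∧
      ‖b - b'‖ ≤ 30000 * ‖a - a'‖ ∧ ‖c - c'‖ ≤ 4 * ‖a - a'‖ := by
  obtain ⟨⟨n1, n1'⟩, ⟨n2, n2'⟩, ⟨n3, n3'⟩⟩ := h.norms hv
  obtain ⟨⟨m1, m1'⟩, ⟨m2, m2'⟩, ⟨m3, m3'⟩⟩ := h'.norms hv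
  obtain ⟨-, -, -, E1, E3⟩ := h
  obtain ⟨-, -, -, E1', E3'⟩ := h'
  set da := ‖a - a'‖ with hda
  set db := ‖b - b'‖ with hdb
  set dc := ‖c - c'‖ with hdc
  have p1 : ‖(a - b) - (a' - b')‖ ≤ da + db := by
    have : (a - b) - (a' - b') = (a - a') - (b - b') := by abel
    rw [this]; exact norm_sub_le _ _
  have p2 : ‖(a - c) - (a' - c')‖ ≤ da + dc := by
    have : (a - c) - (a' - c') = (a - a') - (c - c') := by abel
    rw [this]; exact norm_sub_le _ _
  have p3 : ‖(b - c) - (b' - c')‖ ≤ db + dc := by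
    have : (b - c) - (b' - c') = (b - b') - (c - c') := by abel
    rw [this]; exact norm_sub_le _ _
  have p4 : db ≤ ‖(a - b) - (a' - b')‖ + da := by
    have : b - b' = (a - a') - ((a - b) - (a' - b')) := by abel
    rw [hdb, this]
    refine (norm_sub_le _ _).trans ?_
    linarith
  have p5 : db ≤ ‖(b - c) - (b' - c')‖ + dc := by
    have : b - b' = ((b - c) - (b' - c')) + (c - c') := by abel
    rw [hdb, this]
    exact norm_add_le _ _
  have g1 : ‖G (a - c) - G (a' - c')‖ ≤ 3 * (da + dc) :=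
    (G_lip_three _ _ (by linarith) (by linarith)).trans (by linarith)
  have g2 : ‖G (b - c) - G (b' - c')‖ ≤ db + dc :=
    (G_lip_one _ _ (by linarith) (by linarith)).trans (by linarith)
  have g3 : ‖G (a - b) - G (a' - b')‖ ≤ 3 * (da + db) :=
    (G_lip_three _ _ (by linarith) (by linarith)).trans (by linarith)
  have scale : ∀ x y : V, ‖(10000 : ℝ) • x - (10000 : ℝ) • y‖ = 10000 * ‖x - y‖ := by
    intro x y
    rw [← smul_sub, norm_smul]; norm_num
  -- (A)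
  have eA : (10000 : ℝ) • a - (10000 : ℝ) • a'
      = (G (a - b) - G (a' - b')) + (G (a - c) - G (a' - c')) := by
    rw [← E1, ← E1']; abel
  have hA : 10000 * da ≤ 3 * (da + db) + 3 * (da + dc) := by
    rw [hda, ← scale, eA]
    exact (norm_add_le _ _).trans (add_le_add g3 g1)
  -- (B)
  have eB : (10000 : ℝ) • (c + v) - (10000 : ℝ) • (c' + v)
      = - (G (a - c) - G (a' - c')) - (G (b - c) - G (b' - c')) := by
    have e1 : (10000 : ℝ) • (c + v) = -(G (a - c) + G (b - c)) := by rw [E3, neg_neg]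
    have e2 : (10000 : ℝ) • (c' + v) = -(G (a' - c') + G (b' - c')) := by rw [E3', neg_neg]
    rw [e1, e2]; abel
  have hB : 10000 * dc ≤ 3 * (da + dc) + (db + dc) := by
    have : dc = ‖(c + v) - (c' + v)‖ := by
      rw [hdc]; congr 1; abel
    rw [this, ← scale, eB]
    refine (norm_sub_le _ _).trans ?_
    rw [norm_neg]
    rw [← this]
    exact add_le_add g1 g2
  -- (C)
  have eC : G (a - b) - G (a' - b')
      = ((10000 : ℝ) • a - (10000 : ℝ) • a') - (G (a - c) - G (a' - c')) := by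
    rw [← E1, ← E1']; abel
  have hC : db ≤ da + 2 * (10000 * da + 3 * (da + dc)) := by
    have h1 := G_low_two (a - b) (a' - b') (by linarith) (by linarith) (by linarith) (by linarith)
    rw [eC] at h1
    have h2 : ‖((10000 : ℝ) • a - (10000 : ℝ) • a') - (G (a - c) - G (a' - c'))‖
        ≤ 10000 * da + 3 * (da + dc) := by
      refine (norm_sub_le _ _).trans ?_
      rw [scale]
      linarith
    linarith
  -- (D)
  have eD : G (b - c) - G (b' - c')
      = -((10000 : ℝ) • (c + v) - (10000 : ℝ) • (c' + v)) - (G (a - c) - G (a' - c')) := by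
    have e1 : G (b - c) = -((10000 : ℝ) • (c + v)) - G (a - c) := by
      rw [← E3]; abel
    have e2 : G (b' - c') = -((10000 : ℝ) • (c' + v)) - G (a' - c') := by
      rw [← E3']; abel
    rw [e1, e2]; abel
  have hD : db ≤ dc + 9 * (10000 * dc + 3 * (da + dc)) := by
    have h1 := G_low_nine (b - c) (b' - c') (by linarith) (by linarith) (by linarith) (by linarith)
    rw [eD] at h1
    have h2 : ‖-((10000 : ℝ) • (c + v) - (10000 : ℝ) • (c' + v)) - (G (a - c) - G (a' - c'))‖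
        ≤ 10000 * dc + 3 * (da + dc) := by
      refine (norm_sub_le _ _).trans ?_
      rw [norm_neg, scale]
      have : ‖c + v - (c' + v)‖ = dc := by
        rw [hdc]; congr 1; abel
      rw [this]
      linarith
    linarith
  have n_a : 0 ≤ da := norm_nonneg _
  have n_b : 0 ≤ db := norm_nonneg _
  have n_c : 0 ≤ dc := norm_nonneg _
  refine ⟨?_, ?_, ?_, ?_⟩ <;> linarith

/-! The fixed point construction of the sheet. -/

/-- The auxiliary map giving `b` from `a` and `c`. -/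
noncomputable def bMap (a c : V) : V := a - H ((10000 : ℝ) • a - G (a - c))

/-- The contraction whose fixed point is `c`. -/
noncomputable def theta (v a c : V) : V := -v - (1 / 10000 : ℝ) • (G (a - c) + G (bMap a c - c))

/-- Estimates for `bMap`. -/
lemma bMap_spec {v a c : V} (hv : ‖v‖ = 1) (ha : ‖a‖ ≤ 1 / 10000000) (hc : ‖c + v‖ ≤ 1 / 5000) :
    ‖(a - c) - v‖ ≤ 1 / 4000 ∧ ‖bMap a c - v‖ ≤ 1 / 250 ∧
      G (a - bMap a c) = (10000 : ℝ) • a - G (a - c) ∧
      (9 / 10 ≤ ‖(10000 : ℝ) • a - G (a - c)‖) ∧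
      ‖H ((10000 : ℝ) • a - G (a - c))‖ ≤ 11 / 10 := by
  have h1 : ‖(a - c) - v‖ ≤ 1 / 4000 := by
    have : (a - c) - v = a - (c + v) := by abel
    rw [this]
    refine (norm_sub_le _ _).trans ?_
    linarith
  have n1 := norm_bounds_of_close h1
  rw [hv] at n1
  have h2 : ‖G (a - c) - v‖ ≤ 3 / 4000 := by
    have := G_lip_three (a - c) v (by linarith [n1.1]) (by rw [hv]; norm_num)
    rw [G_unit hv] at this
    linarith
  set W := (10000 : ℝ) • a - G (a - c) with hW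
  have h3 : ‖W - (-v)‖ ≤ 7 / 4000 := by
    have : W - (-v) = (10000 : ℝ) • a - (G (a - c) - v) := by
      rw [hW]; abel
    rw [this]
    refine (norm_sub_le _ _).trans ?_
    rw [norm_smul]
    have : ‖(10000 : ℝ)‖ = 10000 := by norm_num
    rw [this]
    linarith
  have n3 := norm_bounds_of_close h3
  rw [norm_neg, hv] at n3
  have hW0 : W ≠ 0 := ne_zero_of_le_norm (m := 9 / 10) (by norm_num) (by linarith [n3.1])
  have hWn : 9 / 10 ≤ ‖W‖ := by linarith [n3.1]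
  have h4 : ‖H W‖ ^ 2 = ‖W‖⁻¹ := norm_H_sq W hW0
  have h5 : ‖W‖⁻¹ ≤ (10 / 9 : ℝ) := by
    have := inv_anti₀ (by norm_num : (0 : ℝ) < 9 / 10) hWn
    norm_num at this ⊢
    linarith
  have h6 : ‖H W‖ ≤ 11 / 10 := by
    have : ‖H W‖ ^ 2 ≤ (11 / 10 : ℝ) ^ 2 := by
      rw [h4]; refine h5.trans ?_; norm_num
    exact (sq_le_sq₀ (norm_nonneg _) (by norm_num)).mp this
  have h7 : 0 < ‖H W‖ := by
    have : 0 < ‖H W‖ ^ 2 := by
      rw [h4]; exact inv_pos.mpr (norm_pos_iff.mpr hW0)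
    by_contra hcon
    have hz : ‖H W‖ = 0 := le_antisymm (not_lt.mp hcon) (norm_nonneg _)
    rw [hz] at this
    norm_num at this
  have h8 : ‖H W - (-v)‖ ≤ 2 * ‖W - (-v)‖ := by
    have := G_lip_lower (H W) (-v) (M := 11 / 10) (by norm_num) (norm_pos_iff.mp h7)
      (by
        intro hz
        have : ‖-v‖ = 0 := by rw [hz, norm_zero]
        rw [norm_neg, hv] at this
        norm_num at this)
      h6 (by rw [norm_neg, hv]; norm_num)
    rw [G_H W hW0, G_neg, G_unit hv] at this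
    refine this.trans ?_
    have h : ((11 : ℝ) / 10) ^ 3 ≤ 2 := by norm_num
    exact mul_le_mul_of_nonneg_right h (norm_nonneg _)
  refine ⟨h1, ?_, ?_, hWn, h6⟩
  · have : bMap a c - v = a - (H W - (-v)) := by
      rw [bMap, ← hW]; abel
    rw [this]
    refine (norm_sub_le _ _).trans ?_
    linarith
  · have : a - bMap a c = H W := by
      rw [bMap, ← hW]; abel
    rw [this, G_H W hW0]

/-- `theta` maps the small ball into itself. -/
lemma theta_mem {v a c : V} (hv : ‖v‖ = 1) (ha : ‖a‖ ≤ 1 / 10000000) (hc : ‖c + v‖ ≤ 1 / 5000) :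
    ‖theta v a c + v‖ ≤ 1 / 5000 := by
  obtain ⟨h1, h2, -, -, -⟩ := bMap_spec hv ha hc
  have n1 := norm_bounds_of_close h1
  rw [hv] at n1
  have h3 : ‖(bMap a c - c) - (2 : ℝ) • v‖ ≤ 1 / 200 := by
    have : (bMap a c - c) - (2 : ℝ) • v = (bMap a c - v) - (c + v) := by
      rw [two_smul]; abel
    rw [this]
    refine (norm_sub_le _ _).trans ?_
    linarith
  have n3 := norm_bounds_of_close h3
  have : ‖(2 : ℝ) • v‖ = 2 := by rw [norm_smul, hv]; norm_num
  rw [this] at n3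
  have hac : 9 / 10 ≤ ‖a - c‖ := by linarith [n1.1]
  have hbc : 3 / 2 ≤ ‖bMap a c - c‖ := by linarith [n3.1]
  have g1 : ‖G (a - c)‖ ≤ 5 / 4 := by
    rw [norm_G _ (ne_zero_of_le_norm (by norm_num) hac)]
    have : (9 / 10 : ℝ) ^ 2 ≤ ‖a - c‖ ^ 2 := pow_le_pow_left₀ (by norm_num) hac 2
    have := inv_anti₀ (by norm_num : (0 : ℝ) < (9 / 10) ^ 2) this
    refine this.trans (by norm_num)
  have g2 : ‖G (bMap a c - c)‖ ≤ 1 / 2 := by
    rw [norm_G _ (ne_zero_of_le_norm (by norm_num) hbc)]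
    have : (3 / 2 : ℝ) ^ 2 ≤ ‖bMap a c - c‖ ^ 2 := pow_le_pow_left₀ (by norm_num) hbc 2
    have := inv_anti₀ (by norm_num : (0 : ℝ) < (3 / 2) ^ 2) this
    refine this.trans (by norm_num)
  have : theta v a c + v = -((1 / 10000 : ℝ) • (G (a - c) + G (bMap a c - c))) := by
    rw [theta]; abel
  rw [this, norm_neg, norm_smul]
  have h9 : ‖(1 / 10000 : ℝ)‖ = 1 / 10000 := by norm_num
  rw [h9]
  have := norm_add_le (G (a - c)) (G (bMap a c - c))
  nlinarith

/-- `theta` is a contraction on the small ball. -/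
lemma theta_lip {v a c c' : V} (hv : ‖v‖ = 1) (ha : ‖a‖ ≤ 1 / 10000000)
    (hc : ‖c + v‖ ≤ 1 / 5000) (hc' : ‖c' + v‖ ≤ 1 / 5000) :
    ‖theta v a c - theta v a c'‖ ≤ 1 / 2 * ‖c - c'‖ := by
  obtain ⟨h1, h2, -, hW, hH⟩ := bMap_spec hv ha hc
  obtain ⟨h1', h2', -, hW', hH'⟩ := bMap_spec hv ha hc'
  have n1 := norm_bounds_of_close h1
  have n1' := norm_bounds_of_close h1'
  rw [hv] at n1 n1'
  have hac : 9 / 10 ≤ ‖a - c‖ := by linarith [n1.1]
  have hac' : 9 / 10 ≤ ‖a - c'‖ := by linarith [n1'.1]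
  have h3 : ‖(bMap a c - c) - (2 : ℝ) • v‖ ≤ 1 / 200 := by
    have : (bMap a c - c) - (2 : ℝ) • v = (bMap a c - v) - (c + v) := by
      rw [two_smul]; abel
    rw [this]
    refine (norm_sub_le _ _).trans ?_
    linarith
  have h3' : ‖(bMap a c' - c') - (2 : ℝ) • v‖ ≤ 1 / 200 := by
    have : (bMap a c' - c') - (2 : ℝ) • v = (bMap a c' - v) - (c' + v) := by
      rw [two_smul]; abel
    rw [this]
    refine (norm_sub_le _ _).trans ?_
    linarith
  have n3 := norm_bounds_of_close h3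
  have n3' := norm_bounds_of_close h3'
  have htwo : ‖(2 : ℝ) • v‖ = 2 := by rw [norm_smul, hv]; norm_num
  rw [htwo] at n3 n3'
  have hbc : 3 / 2 ≤ ‖bMap a c - c‖ := by linarith [n3.1]
  have hbc' : 3 / 2 ≤ ‖bMap a c' - c'‖ := by linarith [n3'.1]
  set W := (10000 : ℝ) • a - G (a - c) with hWdef
  set W' := (10000 : ℝ) • a - G (a - c') with hWdef'
  have e0 : (a - c) - (a - c') = -(c - c') := by abel
  have g1 : ‖G (a - c) - G (a - c')‖ ≤ 3 * ‖c - c'‖ := by
    have := G_lip_three (a - c) (a - c') hac hac'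
    rwa [e0, norm_neg] at this
  have hWW : ‖W - W'‖ ≤ 3 * ‖c - c'‖ := by
    have : W - W' = -(G (a - c) - G (a - c')) := by
      rw [hWdef, hWdef']; abel
    rw [this, norm_neg]; exact g1
  have hW0 : W ≠ 0 := ne_zero_of_le_norm (by norm_num) hW
  have hW0' : W' ≠ 0 := ne_zero_of_le_norm (by norm_num) hW'
  have hH0 : H W ≠ 0 := by
    intro hz
    have h4 := norm_H_sq W hW0
    rw [hz, norm_zero] at h4
    have := inv_pos.mpr (norm_pos_iff.mpr hW0)
    rw [← h4] at this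
    norm_num at this
  have hH0' : H W' ≠ 0 := by
    intro hz
    have h4 := norm_H_sq W' hW0'
    rw [hz, norm_zero] at h4
    have := inv_pos.mpr (norm_pos_iff.mpr hW0')
    rw [← h4] at this
    norm_num at this
  have hHH : ‖H W - H W'‖ ≤ 6 * ‖c - c'‖ := by
    have := G_lip_lower (H W) (H W') (M := 11 / 10) (by norm_num) hH0 hH0' hH hH'
    rw [G_H W hW0, G_H W' hW0'] at this
    have h : ((11 : ℝ) / 10) ^ 3 ≤ 2 := by norm_num
    have h5 : ((11 : ℝ) / 10) ^ 3 * ‖W - W'‖ ≤ 2 * ‖W - W'‖ :=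
      mul_le_mul_of_nonneg_right h (norm_nonneg _)
    linarith
  have hbb : ‖(bMap a c - c) - (bMap a c' - c')‖ ≤ 7 * ‖c - c'‖ := by
    have : (bMap a c - c) - (bMap a c' - c') = -(H W - H W') - (c - c') := by
      rw [bMap, bMap, ← hWdef, ← hWdef']; abel
    rw [this]
    refine (norm_sub_le _ _).trans ?_
    rw [norm_neg]
    linarith
  have g2 : ‖G (bMap a c - c) - G (bMap a c' - c')‖ ≤ 7 * ‖c - c'‖ :=
    (G_lip_one _ _ hbc hbc').trans (by linarith)
  have : theta v a c - theta v a c'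
      = -((1 / 10000 : ℝ) • ((G (a - c) - G (a - c')) + (G (bMap a c - c) - G (bMap a c' - c')))) := by
    rw [theta, theta, smul_add, smul_add, smul_add, smul_sub, smul_sub]
    abel
  rw [this, norm_neg, norm_smul]
  have h9 : ‖(1 / 10000 : ℝ)‖ = 1 / 10000 := by norm_num
  rw [h9]
  have h10 := norm_add_le (G (a - c) - G (a - c')) (G (bMap a c - c) - G (bMap a c' - c'))
  have h11 := norm_nonneg (c - c')
  nlinarith

/-- Existence of the sheet point over `a`. -/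
lemma exists_sheet_pt [CompleteSpace V] {v a : V} (hv : ‖v‖ = 1) (ha : ‖a‖ ≤ 1 / 10000000) :
    ∃ b c : V, IsSheetPt v a b c := by
  have mem_iff : ∀ c : V, c ∈ closedBall (-v) (1 / 5000) ↔ ‖c + v‖ ≤ 1 / 5000 := by
    intro c
    rw [mem_closedBall_iff_norm, sub_neg_eq_add]
  have hmaps : Set.MapsTo (theta v a) (closedBall (-v) (1 / 5000)) (closedBall (-v) (1 / 5000)) := by
    intro c hc
    rw [mem_iff] at hc ⊢
    exact theta_mem hv ha hc
  have hcontr : ContractingWith (1 / 2 : ℝ≥0) (hmaps.restrict _ _ _) := by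
    refine ⟨by norm_num, ?_⟩
    refine LipschitzWith.of_dist_le_mul ?_
    rintro ⟨c, hc⟩ ⟨c', hc'⟩
    rw [mem_iff] at hc hc'
    change dist (theta v a c) (theta v a c') ≤ ((1 / 2 : ℝ≥0) : ℝ) * dist c c'
    rw [dist_eq_norm, dist_eq_norm]
    simpa using theta_lip hv ha hc hc'
  have h0 : (-v) ∈ closedBall (-v) (1 / 5000 : ℝ) := by
    rw [mem_iff]; simp
  obtain ⟨c, hc, hfix, -⟩ := hcontr.exists_fixedPoint' (isClosed_closedBall.isComplete) hmaps h0
    (edist_ne_top _ _)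
  rw [mem_iff] at hc
  obtain ⟨h1, h2, h3, -, -⟩ := bMap_spec hv ha hc
  refine ⟨bMap a c, c, ha, h2, hc, ?_, ?_⟩
  · rw [h3]; abel
  · have hfix' : theta v a c = c := hfix
    have e : c + v = -((1 / 10000 : ℝ) • (G (a - c) + G (bMap a c - c))) := by
      conv_lhs => rw [← hfix', theta]
      abel
    rw [e, smul_neg, neg_neg, smul_smul]
    norm_num

/-- The global maps attached to a sheet. -/
theorem exists_sheet [FiniteDimensional ℝ V] (v : V) (hv : ‖v‖ = 1) :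
    ∃ b c gb gc : V → V, ∃ L1 L2 L3 L4 : ℝ≥0,
      LipschitzWith L1 b ∧ LipschitzWith L2 c ∧ LipschitzWith L3 gb ∧ LipschitzWith L4 gc ∧
      ∀ a : V, ‖a‖ ≤ 1 / 10000000 → IsSheetPt v a (b a) (c a) ∧ gb (b a) = a ∧ gc (c a) = a := by
  have : CompleteSpace V := FiniteDimensional.complete ℝ V
  have h : ∀ a : V, ∃ p : V × V, ‖a‖ ≤ 1 / 10000000 → IsSheetPt v a p.1 p.2 := by
    intro a
    by_cases ha : ‖a‖ ≤ 1 / 10000000
    · obtain ⟨b, c, hbc⟩ := exists_sheet_pt hv ha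
      exact ⟨(b, c), fun _ => hbc⟩
    · exact ⟨(0, 0), fun h => absurd h ha⟩
  choose p hp using h
  set A0 : Set V := {a | ‖a‖ ≤ 1 / 10000000} with hA0
  have hb : LipschitzOnWith 30000 (fun a => (p a).1) A0 := by
    refine LipschitzOnWith.of_dist_le_mul ?_
    intro a ha a' ha'
    obtain ⟨-, -, h3, -⟩ := sheet_two_pt hv (hp a ha) (hp a' ha')
    simpa [dist_eq_norm] using h3
  have hc : LipschitzOnWith 4 (fun a => (p a).2) A0 := by
    refine LipschitzOnWith.of_dist_le_mul ?_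
    intro a ha a' ha'
    obtain ⟨-, -, -, h4⟩ := sheet_two_pt hv (hp a ha) (hp a' ha')
    simpa [dist_eq_norm] using h4
  have injb : Set.InjOn (fun a => (p a).1) A0 := by
    intro a ha a' ha' heq
    obtain ⟨h1, -, -, -⟩ := sheet_two_pt hv (hp a ha) (hp a' ha')
    simp only at heq
    rw [heq, sub_self, norm_zero] at h1
    exact sub_eq_zero.mp (norm_le_zero_iff.mp h1)
  have injc : Set.InjOn (fun a => (p a).2) A0 := by
    intro a ha a' ha' hh
    obtain ⟨-, h1, -, -⟩ := sheet_two_pt hv (hp a ha) (hp a' ha')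
    simp only at hh
    rw [hh, sub_self, norm_zero, mul_zero] at h1
    exact sub_eq_zero.mp (norm_le_zero_iff.mp h1)
  have hgb : LipschitzOnWith 1 (Function.invFunOn (fun a => (p a).1) A0)
      ((fun a => (p a).1) '' A0) := by
    refine LipschitzOnWith.of_dist_le_mul ?_
    rintro _ ⟨a, ha, rfl⟩ _ ⟨a', ha', rfl⟩
    rw [injb.leftInvOn_invFunOn ha, injb.leftInvOn_invFunOn ha']
    obtain ⟨h1, -, -, -⟩ := sheet_two_pt hv (hp a ha) (hp a' ha')
    simpa [dist_eq_norm] using h1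
  have hgc : LipschitzOnWith 30 (Function.invFunOn (fun a => (p a).2) A0)
      ((fun a => (p a).2) '' A0) := by
    refine LipschitzOnWith.of_dist_le_mul ?_
    rintro _ ⟨a, ha, rfl⟩ _ ⟨a', ha', rfl⟩
    rw [injc.leftInvOn_invFunOn ha, injc.leftInvOn_invFunOn ha']
    obtain ⟨-, h2, -, -⟩ := sheet_two_pt hv (hp a ha) (hp a' ha')
    simpa [dist_eq_norm] using h2
  obtain ⟨b, Lb, eb⟩ := hb.extend_finite_dimension
  obtain ⟨c, Lc, ec⟩ := hc.extend_finite_dimension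
  obtain ⟨gb, Lgb, egb⟩ := hgb.extend_finite_dimension
  obtain ⟨gc, Lgc, egc⟩ := hgc.extend_finite_dimension
  refine ⟨b, c, gb, gc, _, _, _, _, Lb, Lc, Lgb, Lgc, ?_⟩
  intro a ha
  have hb' : b a = (p a).1 := (eb ha).symm
  have hc' : c a = (p a).2 := (ec ha).symm
  refine ⟨?_, ?_, ?_⟩
  · rw [hb', hc']; exact hp a ha
  · rw [hb']
    have := egb (Set.mem_image_of_mem (fun a => (p a).1) ha)
    rw [← this]
    exact injb.leftInvOn_invFunOn ha
  · rw [hc']
    have := egc (Set.mem_image_of_mem (fun a => (p a).2) ha)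
    rw [← this]
    exact injc.leftInvOn_invFunOn ha

end Vale.Agent.P121
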